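import Vale.Agent.P159.T1.H254.UWDefs
import Mathlib.Combinatorics.SetFamily.FourFunctions

/-!
UW1, first part: edge weights and their lattice condition, sign functions and their lattice
condition, the resulting correlation inequality.
-/

open Finset

namespace Vale.Agent.P159.T1.H254

/-- the weight of a closed edge -/
noncomputable def clW (β : ℝ) (i j : ℕ) : ℝ := if i = 0 ∧ j = 0 then β else 0

/-- the weight of an open edge -/
noncomputable def opW (β : ℝ) (i j : ℕ) : ℝ :=
  if i = j then (if i = 0 then 1 - β else 1) else if i = j + 1 ∨ j = i + 1 then β else 0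

/-- the weight of an edge -/
noncomputable def phi (β : ℝ) (i j : ℕ) (o : Bool) : ℝ := if o then opW β i j else clW β i j

lemma clW_nonneg {β : ℝ} (h : 0 ≤ β) (i j : ℕ) : 0 ≤ clW β i j := by
  unfold clW; split_ifs <;> linarith

lemma opW_nonneg {β : ℝ} (h : 0 ≤ β) (h2 : β ≤ 1 / 2) (i j : ℕ) : 0 ≤ opW β i j := by
  unfold opW; split_ifs <;> linarith

lemma phi_nonneg {β : ℝ} (h : 0 ≤ β) (h2 : β ≤ 1 / 2) (i j : ℕ) (o : Bool) :
    0 ≤ phi β i j o := by
  unfold phi; split_ifs
  · exact opW_nonneg h h2 i j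
  · exact clW_nonneg h i j

lemma opW_zero {β : ℝ} {i j : ℕ} (h : ¬ (i ≤ j + 1 ∧ j ≤ i + 1)) : opW β i j = 0 := by
  unfold opW
  rw [if_neg (by omega), if_neg (by omega)]

lemma opW_cross {β : ℝ} (h : 0 ≤ β) (h2 : β ≤ 1 / 2) {i j i' j' : ℕ} (hi : i ≤ i')
    (hj : j' ≤ j) : opW β i j * opW β i' j' ≤ opW β i j' * opW β i' j := by
  by_cases h1 : i = i'
  · subst h1; rw [mul_comm]
  by_cases h3 : j = j'
  · subst h3; exact le_rfl
  by_cases h4 : i ≤ j + 1 ∧ j ≤ i + 1
  · by_cases h5 : i' ≤ j' + 1 ∧ j' ≤ i' + 1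
    · obtain rfl : j' = i := by omega
      obtain rfl : i' = j' + 1 := by omega
      obtain rfl : j = j' + 1 := by omega
      have e1 : opW β j' (j' + 1) = β := by
        unfold opW
        rw [if_neg (by omega), if_pos (by omega)]
      have e2 : opW β (j' + 1) j' = β := by
        unfold opW
        rw [if_neg (by omega), if_pos (by omega)]
      have e3 : opW β (j' + 1) (j' + 1) = 1 := by
        unfold opW
        rw [if_pos rfl, if_neg (by omega)]
      have e4 : 1 - β ≤ opW β j' j' := by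
        unfold opW
        rw [if_pos rfl]
        split_ifs <;> linarith
      rw [e1, e2, e3]
      nlinarith
    · rw [opW_zero h5, mul_zero]
      exact mul_nonneg (opW_nonneg h h2 _ _) (opW_nonneg h h2 _ _)
  · rw [opW_zero h4, zero_mul]
    exact mul_nonneg (opW_nonneg h h2 _ _) (opW_nonneg h h2 _ _)

lemma opW_lat {β : ℝ} (h : 0 ≤ β) (h2 : β ≤ 1 / 2) (i j i' j' : ℕ) :
    opW β i j * opW β i' j' ≤ opW β (min i i') (min j j') * opW β (max i i') (max j j') := by
  rcases le_total i i' with hi | hi <;> rcases le_total j j' with hj | hj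
  · rw [min_eq_left hi, min_eq_left hj, max_eq_right hi, max_eq_right hj]
  · rw [min_eq_left hi, min_eq_right hj, max_eq_right hi, max_eq_left hj]
    exact opW_cross h h2 hi hj
  · rw [min_eq_right hi, min_eq_left hj, max_eq_left hi, max_eq_right hj, mul_comm]
    exact opW_cross h h2 hi hj
  · rw [min_eq_right hi, min_eq_right hj, max_eq_left hi, max_eq_left hj, mul_comm]

lemma phi_lat {β : ℝ} (h : 0 ≤ β) (h2 : β ≤ 1 / 2) (i j i' j' : ℕ) (o o' : Bool) :
    phi β i j o * phi β i' j' o' ≤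
      phi β (min i i') (min j j') (o ⊓ o') * phi β (max i i') (max j j') (o ⊔ o') := by
  cases o <;> cases o'
  · -- both closed
    have e1 : (false ⊓ false : Bool) = false := rfl
    have e2 : (false ⊔ false : Bool) = false := rfl
    rw [e1, e2]
    by_cases h1 : i = 0 ∧ j = 0
    · by_cases h3 : i' = 0 ∧ j' = 0
      · obtain ⟨rfl, rfl⟩ := h1
        obtain ⟨rfl, rfl⟩ := h3
        simp
      · have : phi β i' j' false = 0 := by simp [phi, clW, h3]
        rw [this, mul_zero]
        exact mul_nonneg (phi_nonneg h h2 _ _ _) (phi_nonneg h h2 _ _ _)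
    · have : phi β i j false = 0 := by simp [phi, clW, h1]
      rw [this, zero_mul]
      exact mul_nonneg (phi_nonneg h h2 _ _ _) (phi_nonneg h h2 _ _ _)
  · have e1 : (false ⊓ true : Bool) = false := rfl
    have e2 : (false ⊔ true : Bool) = true := rfl
    rw [e1, e2]
    by_cases h1 : i = 0 ∧ j = 0
    · obtain ⟨rfl, rfl⟩ := h1
      simp
    · have : phi β i j false = 0 := by simp [phi, clW, h1]
      rw [this, zero_mul]
      exact mul_nonneg (phi_nonneg h h2 _ _ _) (phi_nonneg h h2 _ _ _)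
  · have e1 : (true ⊓ false : Bool) = false := rfl
    have e2 : (true ⊔ false : Bool) = true := rfl
    rw [e1, e2]
    by_cases h1 : i' = 0 ∧ j' = 0
    · obtain ⟨rfl, rfl⟩ := h1
      simp [mul_comm]
    · have : phi β i' j' false = 0 := by simp [phi, clW, h1]
      rw [this, mul_zero]
      exact mul_nonneg (phi_nonneg h h2 _ _ _) (phi_nonneg h h2 _ _ _)
  · have e1 : (true ⊓ true : Bool) = true := rfl
    have e2 : (true ⊔ true : Bool) = true := rfl
    rw [e1, e2]
    simpa [phi] using opW_lat h h2 i j i' j'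

section signs

set_option linter.unusedSectionVars false

variable {V E : Type} [Fintype V] [DecidableEq V] [Fintype E] [DecidableEq E]

/-- `σ` is constant on the open edges outside `F` and has the signs `false`, `j` at `om`, `op` -/
def cons (s t : E → V) (om op : V) (F : Finset E) (ω : E → Bool) (j : Bool) (σ : V → Bool) :
    Prop :=
  (∀ e, e ∉ F → ω e = true → σ (s e) = σ (t e)) ∧ σ om = false ∧ σ op = j

instance (s t : E → V) (om op : V) (F : Finset E) (ω : E → Bool) (j : Bool) :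
    DecidablePred (cons s t om op F ω j) := fun σ => by unfold cons; infer_instance

/-- the set of the consistent sign functions -/
def SF (s t : E → V) (om op : V) (F : Finset E) (ω : E → Bool) (j : Bool) :
    Finset (V → Bool) := univ.filter (cons s t om op F ω j)

lemma mem_SF {s t : E → V} {om op : V} {F : Finset E} {ω : E → Bool} {j : Bool} {σ : V → Bool} :
    σ ∈ SF s t om op F ω j ↔ cons s t om op F ω j σ := by simp [SF]

/-- pointwise exclusive or -/
def xr (σ τ : V → Bool) : V → Bool := fun v => xor (σ v) (τ v)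

lemma xr_cons {s t : E → V} {om op : V} {F : Finset E} {ω : E → Bool} {j j' : Bool}
    {σ τ : V → Bool} (h : cons s t om op F ω j σ) (h' : cons s t om op F ω j' τ) :
    cons s t om op F ω (xor j j') (xr σ τ) := by
  refine ⟨fun e he ho => ?_, ?_, ?_⟩
  · simp only [xr]
    rw [h.1 e he ho, h'.1 e he ho]
  · simp only [xr]
    rw [h.2.1, h'.2.1]; rfl
  · simp only [xr]
    rw [h.2.2, h'.2.2]

lemma xr_xr (σ τ : V → Bool) : xr σ (xr σ τ) = τ := by
  funext v
  simp only [xr]
  cases σ v <;> cases τ v <;> rfl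

lemma cons_mono {s t : E → V} {om op : V} {F : Finset E} {ω ω' : E → Bool} {j : Bool}
    {σ : V → Bool} (hle : ω ≤ ω') (h : cons s t om op F ω' j σ) : cons s t om op F ω j σ := by
  refine ⟨fun e he ho => h.1 e he ?_, h.2⟩
  have := hle e
  rw [ho] at this
  exact top_le_iff.mp this

/-- lattice condition for the number of sign functions -/
lemma SF_lat (s t : E → V) (om op : V) (F : Finset E) (ω ω' : E → Bool) :
    (SF s t om op F ω false).card * (SF s t om op F ω' false).card ≤
      (SF s t om op F (ω ⊓ ω') false).card * (SF s t om op F (ω ⊔ ω') false).card := by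
  rw [← card_product]
  have h := card_le_mul_card_image (f := fun x : (V → Bool) × (V → Bool) => xr x.1 x.2)
    (SF s t om op F ω false ×ˢ SF s t om op F ω' false)
    (SF s t om op F (ω ⊔ ω') false).card (fun σ hσ => ?_)
  · rw [mul_comm (SF s t om op F (ω ⊓ ω') false).card]
    refine h.trans (Nat.mul_le_mul_left _ (card_le_card ?_))
    intro σ hσ
    obtain ⟨⟨x, y⟩, hxy, rfl⟩ := mem_image.mp hσ
    rw [mem_product, mem_SF, mem_SF] at hxy
    rw [mem_SF]
    exact xr_cons (cons_mono inf_le_left hxy.1) (cons_mono inf_le_right hxy.2)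
  · obtain ⟨⟨x, y⟩, hxy, rfl⟩ := mem_image.mp hσ
    rw [mem_product, mem_SF, mem_SF] at hxy
    refine card_le_card_of_injOn (fun z => xr x z.1) ?_ ?_
    · rintro ⟨x', y'⟩ hz
      simp only [coe_filter, mem_product, mem_SF, Set.mem_ofPred_eq] at hz
      rw [mem_coe, mem_SF]
      obtain ⟨⟨hx', hy'⟩, he⟩ := hz
      have e2 : xr x x' = xr y y' := by
        funext v
        have := congrFun he v
        simp only [xr] at this ⊢
        revert this
        cases x v <;> cases y v <;> cases x' v <;> cases y' v <;> simp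
      refine ⟨fun e he' ho => ?_, ?_, ?_⟩
      · have ho' : ω e = true ∨ ω' e = true := by
          have : (ω e || ω' e) = true := ho
          simpa using this
        rcases ho' with ho' | ho'
        · exact (xr_cons hxy.1 hx').1 e he' ho'
        · have := (xr_cons hxy.2 hy').1 e he' ho'
          rw [← e2] at this
          exact this
      · exact (xr_cons hxy.1 hx').2.1
      · exact (xr_cons hxy.1 hx').2.2
    · rintro ⟨x', y'⟩ hz ⟨x'', y''⟩ hz' he
      simp only [coe_filter, mem_product, mem_SF, Set.mem_ofPred_eq] at hz hz'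
      have e1 : x' = x'' := by
        have := congrArg (xr x) he
        simpa [xr_xr] using this
      have e2 : y' = y'' := by
        have h1 := hz.2
        have h2 := hz'.2
        rw [← h2, e1] at h1
        have := congrArg (xr x'') h1
        simpa [xr_xr] using this
      rw [e1, e2]

/-- `om` and `op` can get different signs -/
def dis (s t : E → V) (om op : V) (F : Finset E) (ω : E → Bool) : Prop :=
  ∃ σ : V → Bool, cons s t om op F ω true σ

instance (s t : E → V) (om op : V) (F : Finset E) (ω : E → Bool) :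
    Decidable (dis s t om op F ω) := by unfold dis; infer_instance

lemma card_true (s t : E → V) (om op : V) (F : Finset E) (ω : E → Bool) :
    (SF s t om op F ω true).card =
      if dis s t om op F ω then (SF s t om op F ω false).card else 0 := by
  split_ifs with h
  · obtain ⟨σ, hσ⟩ := h
    refine card_bij (fun τ _ => xr σ τ) (fun τ hτ => ?_) (fun τ _ τ' _ he => ?_) (fun τ hτ => ?_)
    · rw [mem_SF] at hτ ⊢
      exact xr_cons hσ hτ
    · have := congrArg (xr σ) he
      simpa [xr_xr] using this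
    · rw [mem_SF] at hτ
      refine ⟨xr σ τ, ?_, xr_xr σ τ⟩
      rw [mem_SF]
      exact xr_cons hσ hτ
  · rw [card_eq_zero, eq_empty_iff_forall_notMem]
    intro σ hσ
    exact h ⟨σ, mem_SF.mp hσ⟩

lemma dis_anti {s t : E → V} {om op : V} {F : Finset E} {ω ω' : E → Bool} (hle : ω ≤ ω')
    (h : dis s t om op F ω') : dis s t om op F ω := by
  obtain ⟨σ, hσ⟩ := h
  exact ⟨σ, cons_mono hle hσ⟩

lemma fin_inf {M : ℕ} (i j : Fin M) : ((i ⊓ j : Fin M) : ℕ) = min (i : ℕ) (j : ℕ) := by
  rcases le_total i j with h | h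
  · rw [inf_eq_left.mpr h, min_eq_left (Fin.le_def.mp h)]
  · rw [inf_eq_right.mpr h, min_eq_right (Fin.le_def.mp h)]

lemma fin_sup {M : ℕ} (i j : Fin M) : ((i ⊔ j : Fin M) : ℕ) = max (i : ℕ) (j : ℕ) := by
  rcases le_total i j with h | h
  · rw [sup_eq_right.mpr h, max_eq_right (Fin.le_def.mp h)]
  · rw [sup_eq_left.mpr h, max_eq_left (Fin.le_def.mp h)]

/-- the weight of `(a, ω)`, the edges of `F` deleted -/
noncomputable def mu (s t : E → V) (M : ℕ) (β : E → ℝ) (om op : V) (F : Finset E)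
    (x : (V → Fin M) × (E → Bool)) : ℝ :=
  (∏ e, if e ∈ F then (1 : ℝ) else phi (β e) (x.1 (s e)) (x.1 (t e)) (x.2 e)) *
    (if (x.1 om : ℕ) = 0 ∧ (x.1 op : ℕ) = 0 then 1 else 0) *
    ((SF s t om op F x.2 false).card : ℝ)

lemma mu_nonneg {s t : E → V} {M : ℕ} {β : E → ℝ} (hβ : ∀ e, 0 ≤ β e ∧ β e ≤ 1 / 2) (om op : V)
    (F : Finset E) (x : (V → Fin M) × (E → Bool)) : 0 ≤ mu s t M β om op F x := by
  unfold mu
  refine mul_nonneg (mul_nonneg (prod_nonneg fun e _ => ?_) ?_) (Nat.cast_nonneg _)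
  · split_ifs
    · exact zero_le_one
    · exact phi_nonneg (hβ e).1 (hβ e).2 _ _ _
  · split_ifs <;> norm_num

lemma mu_lat {s t : E → V} {M : ℕ} {β : E → ℝ} (hβ : ∀ e, 0 ≤ β e ∧ β e ≤ 1 / 2) (om op : V)
    (F : Finset E) (x y : (V → Fin M) × (E → Bool)) :
    mu s t M β om op F x * mu s t M β om op F y ≤
      mu s t M β om op F (x ⊓ y) * mu s t M β om op F (x ⊔ y) := by
  have hp : ∀ z : (V → Fin M) × (E → Bool), 0 ≤
      ∏ e, if e ∈ F then (1 : ℝ) else phi (β e) (z.1 (s e)) (z.1 (t e)) (z.2 e) := fun z =>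
    prod_nonneg fun e _ => by
      split_ifs
      · exact zero_le_one
      · exact phi_nonneg (hβ e).1 (hβ e).2 _ _ _
  have hb : ∀ z : (V → Fin M) × (E → Bool), (0 : ℝ) ≤
      (if (z.1 om : ℕ) = 0 ∧ (z.1 op : ℕ) = 0 then 1 else 0) := fun z => by
    split_ifs <;> norm_num
  have h1 : (∏ e, if e ∈ F then (1 : ℝ) else phi (β e) (x.1 (s e)) (x.1 (t e)) (x.2 e)) *
      (∏ e, if e ∈ F then (1 : ℝ) else phi (β e) (y.1 (s e)) (y.1 (t e)) (y.2 e)) ≤
      (∏ e, if e ∈ F then (1 : ℝ) else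
        phi (β e) ((x ⊓ y).1 (s e)) ((x ⊓ y).1 (t e)) ((x ⊓ y).2 e)) *
      (∏ e, if e ∈ F then (1 : ℝ) else
        phi (β e) ((x ⊔ y).1 (s e)) ((x ⊔ y).1 (t e)) ((x ⊔ y).2 e)) := by
    rw [← prod_mul_distrib, ← prod_mul_distrib]
    refine prod_le_prod (fun e _ => ?_) fun e _ => ?_
    · split_ifs
      · norm_num
      · exact mul_nonneg (phi_nonneg (hβ e).1 (hβ e).2 _ _ _) (phi_nonneg (hβ e).1 (hβ e).2 _ _ _)
    · split_ifs
      · exact le_rfl
      · have := phi_lat (hβ e).1 (hβ e).2 (x.1 (s e)) (x.1 (t e)) (y.1 (s e)) (y.1 (t e))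
          (x.2 e) (y.2 e)
        rw [← fin_inf, ← fin_inf, ← fin_sup, ← fin_sup] at this
        exact this
  have h2 : (if (x.1 om : ℕ) = 0 ∧ (x.1 op : ℕ) = 0 then (1 : ℝ) else 0) *
      (if (y.1 om : ℕ) = 0 ∧ (y.1 op : ℕ) = 0 then (1 : ℝ) else 0) ≤
      (if ((x ⊓ y).1 om : ℕ) = 0 ∧ ((x ⊓ y).1 op : ℕ) = 0 then (1 : ℝ) else 0) *
      (if ((x ⊔ y).1 om : ℕ) = 0 ∧ ((x ⊔ y).1 op : ℕ) = 0 then (1 : ℝ) else 0) := by
    by_cases hx : (x.1 om : ℕ) = 0 ∧ (x.1 op : ℕ) = 0
    · by_cases hy : (y.1 om : ℕ) = 0 ∧ (y.1 op : ℕ) = 0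
      · have h3 : ((x ⊓ y).1 om : ℕ) = 0 ∧ ((x ⊓ y).1 op : ℕ) = 0 := by
          simp [hx.1, hx.2]
        have h4 : ((x ⊔ y).1 om : ℕ) = 0 ∧ ((x ⊔ y).1 op : ℕ) = 0 := by
          simp [hx.1, hx.2, hy.1, hy.2]
        rw [if_pos hx, if_pos hy, if_pos h3, if_pos h4]
      · rw [if_neg hy, mul_zero]
        exact mul_nonneg (hb _) (hb _)
    · rw [if_neg hx, zero_mul]
      exact mul_nonneg (hb _) (hb _)
  have h3 : ((SF s t om op F x.2 false).card : ℝ) * ((SF s t om op F y.2 false).card : ℝ) ≤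
      ((SF s t om op F (x ⊓ y).2 false).card : ℝ) * ((SF s t om op F (x ⊔ y).2 false).card : ℝ) := by
    exact_mod_cast SF_lat s t om op F x.2 y.2
  unfold mu
  calc _ = ((∏ e, if e ∈ F then (1 : ℝ) else phi (β e) (x.1 (s e)) (x.1 (t e)) (x.2 e)) *
      (∏ e, if e ∈ F then (1 : ℝ) else phi (β e) (y.1 (s e)) (y.1 (t e)) (y.2 e))) *
      ((if (x.1 om : ℕ) = 0 ∧ (x.1 op : ℕ) = 0 then (1 : ℝ) else 0) *
      (if (y.1 om : ℕ) = 0 ∧ (y.1 op : ℕ) = 0 then (1 : ℝ) else 0)) *
      (((SF s t om op F x.2 false).card : ℝ) * ((SF s t om op F y.2 false).card : ℝ)) := by ring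
    _ ≤ _ := mul_le_mul (mul_le_mul h1 h2 (mul_nonneg (hb _) (hb _))
      (mul_nonneg (hp _) (hp _))) h3 (by positivity)
      (mul_nonneg (mul_nonneg (hp _) (hp _)) (mul_nonneg (hb _) (hb _)))
    _ = _ := by ring

/-- two decreasing functions are positively correlated -/
lemma fkg_anti {s t : E → V} {M : ℕ} {β : E → ℝ} (hβ : ∀ e, 0 ≤ β e ∧ β e ≤ 1 / 2) (om op : V)
    (F : Finset E) {f g : (V → Fin M) × (E → Bool) → ℝ} (hf0 : 0 ≤ f) (hg0 : 0 ≤ g)
    (hf : Antitone f) (hg : Antitone g) :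
    (∑ x, mu s t M β om op F x * f x) * (∑ x, mu s t M β om op F x * g x) ≤
      (∑ x, mu s t M β om op F x * (f x * g x)) * ∑ x, mu s t M β om op F x := by
  refine four_functions_theorem_univ (fun x => mu s t M β om op F x * f x)
    (fun x => mu s t M β om op F x * g x) (fun x => mu s t M β om op F x * (f x * g x))
    (fun x => mu s t M β om op F x) (fun x => mul_nonneg (mu_nonneg hβ _ _ _ _) (hf0 x))
    (fun x => mul_nonneg (mu_nonneg hβ _ _ _ _) (hg0 x))
    (fun x => mul_nonneg (mu_nonneg hβ _ _ _ _) (mul_nonneg (hf0 x) (hg0 x)))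
    (fun x => mu_nonneg hβ _ _ _ _) fun x y => ?_
  have h1 := mu_lat (s := s) (t := t) hβ om op F x y
  have h2 : f x * g y ≤ f (x ⊓ y) * g (x ⊓ y) :=
    mul_le_mul (hf inf_le_left) (hg inf_le_right) (hg0 _) (hf0 _)
  calc mu s t M β om op F x * f x * (mu s t M β om op F y * g y) =
      (mu s t M β om op F x * mu s t M β om op F y) * (f x * g y) := by ring
    _ ≤ (mu s t M β om op F (x ⊓ y) * mu s t M β om op F (x ⊔ y)) *
        (f (x ⊓ y) * g (x ⊓ y)) :=
      mul_le_mul h1 h2 (mul_nonneg (hf0 _) (hg0 _))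
        (mul_nonneg (mu_nonneg hβ _ _ _ _) (mu_nonneg hβ _ _ _ _))
    _ = _ := by ring

end signs

end Vale.Agent.P159.T1.H254
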