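import Vale.Agent.P159.T1.H254.UW1a

/-!
UW1, second part: the Edwards-Sokal identity, the cluster of `f`.
-/

open Finset

namespace Vale.Agent.P159.T1.H254

lemma ker_same (β : ℝ) {M : ℕ} (i j : Fin M) (b : Bool) :
    ker 1 β (hgt i b - hgt j b) = opW β j i + clW β j i := by
  have h1 : (hgt i b - hgt j b = 0) ↔ ((j : ℕ) = i) := by
    unfold hgt; split_ifs <;> omega
  have h2 : (|hgt i b - hgt j b| = 1) ↔ ((j : ℕ) = (i : ℕ) + 1 ∨ (i : ℕ) = (j : ℕ) + 1) := by
    unfold hgt
    rw [abs_eq zero_le_one]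
    split_ifs <;> omega
  unfold ker opW clW
  by_cases h3 : (j : ℕ) = i
  · rw [if_pos (h1.mpr h3), if_pos h3]
    by_cases h4 : (j : ℕ) = 0
    · rw [if_pos h4, if_pos ⟨h4, by omega⟩]; ring
    · rw [if_neg h4, if_neg (by omega)]; ring
  · rw [if_neg (fun h => h3 (h1.mp h)), if_neg h3]
    by_cases h4 : (j : ℕ) = (i : ℕ) + 1 ∨ (i : ℕ) = (j : ℕ) + 1
    · rw [if_pos (h2.mpr h4), if_pos h4, if_neg (by omega)]; ring
    · rw [if_neg (fun h => h4 (h2.mp h)), if_neg h4, if_neg (by omega)]; ring

lemma ker_diff (β : ℝ) {M : ℕ} (i j : Fin M) {b c : Bool} (h : b ≠ c) :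
    ker 1 β (hgt i b - hgt j c) = clW β j i := by
  have h0 : ¬ (hgt i b - hgt j c = 0) := by
    unfold hgt; revert h; cases b <;> cases c <;> simp <;> omega
  have h2 : (|hgt i b - hgt j c| = 1) ↔ ((j : ℕ) = 0 ∧ (i : ℕ) = 0) := by
    unfold hgt
    rw [abs_eq zero_le_one]
    revert h; cases b <;> cases c <;> simp <;> omega
  unfold ker clW
  rw [if_neg h0]
  by_cases h4 : (j : ℕ) = 0 ∧ (i : ℕ) = 0
  · rw [if_pos (h2.mpr h4), if_pos h4]
  · rw [if_neg (fun h => h4 (h2.mp h)), if_neg h4]

section es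

set_option linter.unusedSectionVars false

variable {V E : Type} [Fintype V] [DecidableEq V] [Fintype E] [DecidableEq E]

lemma sum_prod_bool (g : E → Bool → ℝ) :
    ∑ ω : E → Bool, ∏ e, g e (ω e) = ∏ e, (g e true + g e false) := by
  have h := (Finset.prod_univ_sum (fun _ : E => (univ : Finset Bool)) (fun e o => g e o)).symm
  rw [Fintype.piFinset_univ] at h
  rw [h]
  refine prod_congr rfl fun e _ => ?_
  rw [Fintype.sum_bool]

/-- Edwards-Sokal -/
lemma es (s t : E → V) {M : ℕ} (β : E → ℝ) (F : Finset E) (a : V → Fin M)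
    (P : (V → Bool) → Prop) [DecidablePred P] :
    ∑ ω : E → Bool, (∏ e, if e ∈ F then (1 : ℝ) else phi (β e) (a (s e)) (a (t e)) (ω e)) *
      ((univ.filter fun σ : V → Bool =>
        (∀ e, e ∉ F → ω e = true → σ (s e) = σ (t e)) ∧ P σ).card : ℝ) =
    2 ^ F.card * ∑ σ : V → Bool, if P σ then
      ∏ e ∈ Fᶜ, ker 1 (β e) (hgt (a (t e)) (σ (t e)) - hgt (a (s e)) (σ (s e))) else 0 := by
  have h1 : ∀ ω : E → Bool, ((univ.filter fun σ : V → Bool =>
        (∀ e, e ∉ F → ω e = true → σ (s e) = σ (t e)) ∧ P σ).card : ℝ) =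
      ∑ σ : V → Bool, if P σ then ∏ e, (if e ∈ F then (1 : ℝ) else
        if (ω e = true → σ (s e) = σ (t e)) then 1 else 0) else 0 := by
    intro ω
    rw [card_filter, Nat.cast_sum]
    refine sum_congr rfl fun σ _ => ?_
    by_cases hP : P σ
    · rw [if_pos hP]
      by_cases hc : ∀ e, e ∉ F → ω e = true → σ (s e) = σ (t e)
      · rw [if_pos ⟨hc, hP⟩, Nat.cast_one]
        symm
        refine prod_eq_one fun e _ => ?_
        by_cases he : e ∈ F
        · rw [if_pos he]
        · rw [if_neg he, if_pos (hc e he)]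
      · rw [if_neg (fun h => hc h.1), Nat.cast_zero]
        symm
        push Not at hc
        obtain ⟨e, he, ho, hne⟩ := hc
        refine prod_eq_zero (mem_univ e) ?_
        rw [if_neg he, if_neg (fun h => hne (h ho))]
    · rw [if_neg hP, if_neg (fun h => hP h.2), Nat.cast_zero]
  calc _ = ∑ ω : E → Bool, ∑ σ : V → Bool, (if P σ then ∏ e, ((if e ∈ F then (1 : ℝ) else
        phi (β e) (a (s e)) (a (t e)) (ω e)) * (if e ∈ F then (1 : ℝ) else
        if (ω e = true → σ (s e) = σ (t e)) then 1 else 0)) else 0) := by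
        refine sum_congr rfl fun ω _ => ?_
        rw [h1, mul_sum]
        refine sum_congr rfl fun σ _ => ?_
        split_ifs
        · rw [prod_mul_distrib]
        · rw [mul_zero]
    _ = ∑ σ : V → Bool, ∑ ω : E → Bool, (if P σ then ∏ e, ((if e ∈ F then (1 : ℝ) else
        phi (β e) (a (s e)) (a (t e)) (ω e)) * (if e ∈ F then (1 : ℝ) else
        if (ω e = true → σ (s e) = σ (t e)) then 1 else 0)) else 0) := sum_comm
    _ = _ := by
        rw [mul_sum]
        refine sum_congr rfl fun σ _ => ?_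
        by_cases hP : P σ
        · simp only [if_pos hP]
          rw [sum_prod_bool (fun e o => (if e ∈ F then (1 : ℝ) else
            phi (β e) (a (s e)) (a (t e)) o) * (if e ∈ F then (1 : ℝ) else
            if (o = true → σ (s e) = σ (t e)) then 1 else 0))]
          rw [← prod_mul_prod_compl F]
          congr 1
          · rw [prod_congr rfl (g := fun _ => (2 : ℝ)), prod_const]
            intro e he
            simp only [if_pos he]
            norm_num
          · refine prod_congr rfl fun e he => ?_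
            have he' : e ∉ F := by simpa using he
            simp only [if_neg he']
            by_cases hs : σ (s e) = σ (t e)
            · have : ∀ o : Bool, (o = true → σ (s e) = σ (t e)) := fun _ _ => hs
              simp only [if_pos (this _)]
              rw [hs, ker_same]
              simp [phi]
            · rw [ker_diff _ _ _ (fun h => hs h.symm)]
              simp [phi, hs]
        · simp only [if_neg hP]
          simp

/-- the sum of the weights -/
lemma sum_mu (s t : E → V) {M : ℕ} (β : E → ℝ) (om op : V) (F : Finset E) :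
    ∑ x, mu s t M β om op F x = 2 ^ F.card * ZF s t M β om op F false := by
  unfold mu ZF
  rw [Fintype.sum_prod_type, mul_sum]
  refine sum_congr rfl fun a _ => ?_
  have h := es s t β F a (fun σ => σ om = false ∧ σ op = false)
  by_cases h0 : (a om : ℕ) = 0 ∧ (a op : ℕ) = 0
  · simp only [if_pos h0, mul_one]
    rw [show (∑ ω : E → Bool, (∏ e, if e ∈ F then (1 : ℝ) else
      phi (β e) (a (s e)) (a (t e)) (ω e)) * ((SF s t om op F ω false).card : ℝ)) = _ from h]
    congr 1
    refine sum_congr rfl fun σ _ => ?_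
    congr 1
    simp [h0.1, h0.2]
  · simp only [if_neg h0, mul_zero, zero_mul, sum_const_zero]
    symm
    rw [mul_eq_zero]
    right
    refine sum_eq_zero fun σ _ => ?_
    rw [if_neg (fun h => h0 ⟨h.1, h.2.1⟩)]

lemma sum_mu_dis (s t : E → V) {M : ℕ} (β : E → ℝ) (om op : V) (F : Finset E) :
    ∑ x, mu s t M β om op F x * (if dis s t om op F x.2 then 1 else 0) =
      2 ^ F.card * ZF s t M β om op F true := by
  unfold mu ZF
  rw [Fintype.sum_prod_type, mul_sum]
  refine sum_congr rfl fun a _ => ?_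
  have h := es s t β F a (fun σ => σ om = false ∧ σ op = true)
  by_cases h0 : (a om : ℕ) = 0 ∧ (a op : ℕ) = 0
  · simp only [if_pos h0, mul_one]
    rw [show (∑ ω : E → Bool, (∏ e, if e ∈ F then (1 : ℝ) else
      phi (β e) (a (s e)) (a (t e)) (ω e)) * ((SF s t om op F ω false).card : ℝ) *
        (if dis s t om op F ω then 1 else 0)) = ∑ ω : E → Bool, (∏ e, if e ∈ F then (1 : ℝ) else
      phi (β e) (a (s e)) (a (t e)) (ω e)) * ((SF s t om op F ω true).card : ℝ) from ?_]
    · rw [show (∑ ω : E → Bool, (∏ e, if e ∈ F then (1 : ℝ) else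
        phi (β e) (a (s e)) (a (t e)) (ω e)) * ((SF s t om op F ω true).card : ℝ)) = _ from h]
      congr 1
      refine sum_congr rfl fun σ _ => ?_
      congr 1
      simp [h0.1, h0.2]
    · refine sum_congr rfl fun ω _ => ?_
      rw [card_true]
      split_ifs <;> simp
  · simp only [if_neg h0, mul_zero, zero_mul, sum_const_zero]
    symm
    rw [mul_eq_zero]
    right
    refine sum_eq_zero fun σ _ => ?_
    rw [if_neg (fun h => h0 ⟨h.1, h.2.1⟩)]

lemma ZF_pos (s t : E → V) {M : ℕ} (hM : 0 < M) (β : E → ℝ) (hβ : ∀ e, 0 ≤ β e ∧ β e ≤ 1 / 2)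
    (om op : V) (F : Finset E) : 0 < ZF s t M β om op F false := by
  have hk : ∀ (e : E) (n : ℤ), 0 ≤ ker 1 (β e) n := fun e n => by
    unfold ker; split_ifs <;> linarith [(hβ e).1]
  unfold ZF
  have h1 : ∀ (a : V → Fin M) (σ : V → Bool), (0 : ℝ) ≤
      if (a om : ℕ) = 0 ∧ (a op : ℕ) = 0 ∧ σ om = false ∧ σ op = false then
      ∏ e ∈ Fᶜ, ker 1 (β e) (hgt (a (t e)) (σ (t e)) - hgt (a (s e)) (σ (s e))) else 0 := by
    intro a σ
    split_ifs
    · exact prod_nonneg fun e _ => hk e _
    · exact le_rfl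
  refine sum_pos' (fun a _ => sum_nonneg fun σ _ => h1 a σ) ⟨fun _ => ⟨0, hM⟩, mem_univ _, ?_⟩
  refine sum_pos' (fun σ _ => h1 (fun _ => ⟨0, hM⟩) σ) ⟨fun _ => false, mem_univ _, ?_⟩
  rw [if_pos (by simp)]
  refine prod_pos fun e _ => ?_
  simp [ker]

end es

end Vale.Agent.P159.T1.H254
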