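import Vale.Agent.P159.T1.H254.UWDefs

/-!
Shorter form of the rows of the unwiring inequality (remark of helper770: the comparison with
`G` minus `f` is a second use of the correlation inequality; no Ginibre inequality is needed).
-/

open Filter Topology

namespace Vale.Agent.P159.T1.H254

open Vale.Agent.P159.H353

/-- UW1 (finite core), form with `G` minus `f` only -/
def StmtUW1f : Prop :=
  ∀ (V E : Type) [Fintype V] [DecidableEq V] [Fintype E] [DecidableEq E] (s t : E → V)
    (M : ℕ) (β : E → ℝ) (om op f : V), 0 < M → (∀ e, 0 < β e ∧ β e ≤ 1 / 2) →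
    f ≠ om → f ≠ op → om ≠ op →
    2 * ZFP s t M β om op f * ZF s t M β om op (touch s t {f}) true ≤
      ZF s t M β om op ∅ true * ZF s t M β om op (touch s t {f}) false

/-- UW2 (subdivision), form with `G` minus `f` only; no loops -/
def StmtUW2f : Prop :=
  ∀ (V E : Type) [Fintype V] [DecidableEq V] [Fintype E] [DecidableEq E] (s t : E → V)
    (J : E → ℝ) (om op f : V), (∀ e, 0 < J e) → (∀ e, s e ≠ t e) →
    f ≠ om → f ≠ op → om ≠ op → Joined s t om op ∅ → Joined s t om op {f} →
    ∀ m : ℕ, 0 < m → (∀ e, J e ≤ m) →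
    2 * ZP s t (fun e => kerP (J e / (2 * m)) m) om op f *
        ZS s t (fun e => kerP (J e / (2 * m)) m) om op {f} 1 ≤
      ZS s t (fun e => kerP (J e / (2 * m)) m) om op ∅ 1 *
        ZS s t (fun e => kerP (J e / (2 * m)) m) om op {f} 0

/-- UW without loops -/
def StmtUWf : Prop :=
  ∀ (V E : Type) [Fintype V] [DecidableEq V] [Fintype E] [DecidableEq E] (s t : E → V)
    (J : E → ℝ) (om op f : V), (∀ e, 0 < J e) → (∀ e, s e ≠ t e) →
    f ≠ om → f ≠ op → om ≠ op →
    Joined s t om op ∅ → Joined s t om op {f} →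
    2 * ZP s t (fun e => wI (J e)) om op f * ZS s t (fun e => wI (J e)) om op {f} 1 ≤
      ZS s t (fun e => wI (J e)) om op ∅ 1 * ZS s t (fun e => wI (J e)) om op {f} 0

/-- assembly: the subdivision inequality and the limit give the unwiring inequality -/
theorem uwf_of (h2 : StmtUW2f) (h3 : StmtUW3) : StmtUWf := by
  intro V E _ _ _ _ s t J om op f hJ hl hf1 hf2 hoo hJ1 hJ2
  obtain ⟨hS, hP⟩ := h3 V E s t J om op f (fun e => (hJ e).le) hJ1
  have e1 := hS {f} hJ2 1
  have e2 := hS {f} hJ2 0
  have e3 := hS ∅ hJ1 1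
  have hL := (hP.const_mul 2).mul e1
  have hR := e3.mul e2
  refine le_of_tendsto_of_tendsto hL hR ?_
  obtain ⟨N, hN⟩ := exists_nat_ge (∑ e, J e)
  filter_upwards [eventually_ge_atTop (max N 1)] with m hm
  refine h2 V E s t J om op f hJ hl hf1 hf2 hoo hJ1 hJ2 m (by omega) fun e => ?_
  have h4 : J e ≤ ∑ e, J e :=
    Finset.single_le_sum (fun e _ => (hJ e).le) (Finset.mem_univ e)
  have h5 : (N : ℝ) ≤ m := by exact_mod_cast (le_max_left N 1).trans hm
  linarith

end Vale.Agent.P159.T1.H254
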