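import Vale.Agent.P159.T1.H254.UW1b
import Vale.Agent.P159.T1.H254.UWDefsB

/-!
UW1, third part: the cluster of `f`, factorization of the weight given the cluster, the finite
unwiring inequality `uw1f : StmtUW1f`.
-/

open Finset

namespace Vale.Agent.P159.T1.H254

section clus

set_option linter.unusedSectionVars false

variable {V E : Type} [Fintype V] [DecidableEq V] [Fintype E] [DecidableEq E]

/-- an open step -/
def stp (s t : E → V) (ω : E → Bool) (x y : V) : Prop :=
  ∃ e, ω e = true ∧ ((s e = x ∧ t e = y) ∨ (s e = y ∧ t e = x))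

open Classical in
/-- the cluster of `f` -/
noncomputable def clus (s t : E → V) (f : V) (ω : E → Bool) : Finset V :=
  univ.filter fun v => Relation.ReflTransGen (stp s t ω) f v

variable {s t : E → V} {f om op : V} {ω ω' : E → Bool}

lemma mem_clus {v : V} : v ∈ clus s t f ω ↔ Relation.ReflTransGen (stp s t ω) f v := by
  simp [clus]

lemma f_mem_clus : f ∈ clus s t f ω := mem_clus.mpr .refl

lemma clus_edge {e : E} (h : ω e = true) : s e ∈ clus s t f ω ↔ t e ∈ clus s t f ω := by
  rw [mem_clus, mem_clus]
  exact ⟨fun h1 => h1.tail ⟨e, h, Or.inl ⟨rfl, rfl⟩⟩,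
    fun h1 => h1.tail ⟨e, h, Or.inr ⟨rfl, rfl⟩⟩⟩

lemma mem_touch {U : Finset V} {e : E} : e ∈ touch s t U ↔ s e ∈ U ∨ t e ∈ U := by
  simp [touch]

lemma clus_congr {U : Finset V} (h : ∀ e ∈ touch s t U, ω e = ω' e)
    (hc : clus s t f ω = U) : clus s t f ω' = U := by
  ext v
  constructor
  · intro hv
    rw [mem_clus] at hv
    induction hv with
    | refl => rw [← hc]; exact f_mem_clus
    | tail _ h2 ih =>
      obtain ⟨e, he, h3 | h3⟩ := h2
      · have h4 : e ∈ touch s t U := mem_touch.mpr (Or.inl (h3.1 ▸ ih))
        have h5 : ω e = true := (h e h4).trans he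
        rw [← h3.2, ← hc]
        rw [← clus_edge h5, hc, h3.1]
        exact ih
      · have h4 : e ∈ touch s t U := mem_touch.mpr (Or.inr (h3.2 ▸ ih))
        have h5 : ω e = true := (h e h4).trans he
        rw [← h3.1, ← hc]
        rw [clus_edge h5, hc, h3.2]
        exact ih
  · intro hv
    rw [← hc, mem_clus] at hv
    rw [mem_clus]
    induction hv with
    | refl => exact .refl
    | tail h1 h2 ih =>
      refine ih.tail ?_
      have h6 := hc ▸ mem_clus.mpr h1
      obtain ⟨e, he, h3⟩ := h2
      have h4 : e ∈ touch s t U := by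
        rw [mem_touch]
        rcases h3 with h3 | h3
        · left; rw [h3.1]; exact h6
        · right; rw [h3.2]; exact h6
      exact ⟨e, (h e h4).symm.trans he, h3⟩

lemma cons_clus {j : Bool} {σ : V → Bool} (h : cons s t om op ∅ ω j σ) {v : V}
    (hv : v ∈ clus s t f ω) : σ v = σ f := by
  rw [mem_clus] at hv
  induction hv with
  | refl => rfl
  | tail _ h2 ih =>
    obtain ⟨e, he, h3 | h3⟩ := h2
    · have := h.1 e (notMem_empty e) he
      rw [h3.1, h3.2] at this
      rw [← this, ih]
    · have := h.1 e (notMem_empty e) he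
      rw [h3.1, h3.2] at this
      rw [this, ih]

/-- `ω` with the edges touching `U` closed -/
def cl (s t : E → V) (U : Finset V) (ω : E → Bool) : E → Bool :=
  fun e => if e ∈ touch s t U then false else ω e

/-- `σ` with the value `b` on `U` -/
def fill (U : Finset V) (b : Bool) (σ : V → Bool) : V → Bool :=
  fun v => if v ∈ U then b else σ v

lemma cons_fill {U : Finset V} (hc : clus s t f ω = U) (h1 : om ∉ U) (h2 : op ∉ U) {j : Bool}
    {σ : V → Bool} (h : cons s t om op ∅ (cl s t U ω) j σ) (b : Bool) :
    cons s t om op ∅ ω j (fill U b σ) := by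
  refine ⟨fun e _ he => ?_, ?_, ?_⟩
  · have h3 := clus_edge (f := f) (s := s) (t := t) he
    rw [hc] at h3
    unfold fill
    by_cases h4 : s e ∈ U
    · rw [if_pos h4, if_pos (h3.mp h4)]
    · rw [if_neg h4, if_neg (fun h5 => h4 (h3.mpr h5))]
      refine h.1 e (notMem_empty e) ?_
      unfold cl
      rw [if_neg, he]
      rw [mem_touch]
      rintro (h5 | h5)
      · exact h4 h5
      · exact h4 (h3.mpr h5)
  · unfold fill; rw [if_neg h1]; exact h.2.1
  · unfold fill; rw [if_neg h2]; exact h.2.2

lemma cl_le (U : Finset V) : cl s t U ω ≤ ω := by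
  intro e
  unfold cl
  split_ifs
  · exact Bool.false_le _
  · exact le_rfl

lemma dis_cl {U : Finset V} (hc : clus s t f ω = U) (h1 : om ∉ U) (h2 : op ∉ U) :
    dis s t om op ∅ (cl s t U ω) ↔ dis s t om op ∅ ω := by
  constructor
  · rintro ⟨σ, hσ⟩
    exact ⟨_, cons_fill hc h1 h2 hσ false⟩
  · exact dis_anti (cl_le U)

lemma cons_cl_iff {U : Finset V} {F : Finset E} (hF : F ⊆ touch s t U) {j : Bool}
    {σ : V → Bool} :
    cons s t om op F (cl s t U ω) j σ ↔ cons s t om op ∅ (cl s t U ω) j σ := by
  constructor
  · intro h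
    refine ⟨fun e _ he => ?_, h.2⟩
    by_cases h1 : e ∈ F
    · unfold cl at he
      rw [if_pos (hF h1)] at he
      simp at he
    · exact h.1 e h1 he
  · intro h
    exact ⟨fun e _ he => h.1 e (notMem_empty e) he, h.2⟩

lemma dis_cl_iff {U : Finset V} {F : Finset E} (hF : F ⊆ touch s t U) :
    dis s t om op F (cl s t U ω) ↔ dis s t om op ∅ (cl s t U ω) := by
  unfold dis
  simp only [cons_cl_iff hF]

lemma SF_cl_eq {U : Finset V} {F : Finset E} (hF : F ⊆ touch s t U) {j : Bool} :
    SF s t om op F (cl s t U ω) j = SF s t om op ∅ (cl s t U ω) j := by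
  ext σ
  rw [mem_SF, mem_SF, cons_cl_iff hF]

lemma card_SF_clus {U : Finset V} (hc : clus s t f ω = U) (h1 : om ∉ U) (h2 : op ∉ U)
    (j : Bool) : 2 ^ U.card * (SF s t om op ∅ ω j).card =
      2 * (SF s t om op ∅ (cl s t U ω) j).card := by
  set R := (SF s t om op ∅ (cl s t U ω) j).filter fun σ => ∀ v ∈ U, σ v = false with hR
  have hfU : f ∈ U := hc ▸ f_mem_clus
  have e1 : (SF s t om op ∅ ω j).card = (R ×ˢ (univ : Finset Bool)).card := by
    refine card_nbij' (fun σ => (fill U false σ, σ f)) (fun p => fill U p.2 p.1) ?_ ?_ ?_ ?_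
    · intro σ hσ
      have hσ' : cons s t om op ∅ ω j σ := by simpa [mem_SF] using hσ
      simp only [coe_product, Set.mem_prod, mem_coe, mem_univ, and_true, hR, mem_filter, mem_SF]
      refine ⟨?_, fun v hv => by unfold fill; rw [if_pos hv]⟩
      refine ⟨fun e _ he => ?_, ?_, ?_⟩
      · by_cases h3 : e ∈ touch s t U
        · unfold cl at he
          rw [if_pos h3] at he
          simp at he
        · unfold cl at he
          rw [if_neg h3] at he
          rw [mem_touch, not_or] at h3
          unfold fill
          rw [if_neg h3.1, if_neg h3.2]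
          exact hσ'.1 e (notMem_empty e) he
      · unfold fill; rw [if_neg h1]; exact hσ'.2.1
      · unfold fill; rw [if_neg h2]; exact hσ'.2.2
    · rintro ⟨τ, b⟩ hp
      simp only [coe_product, Set.mem_prod, mem_coe, mem_univ, and_true, hR, mem_filter,
        mem_SF] at hp
      simp only [mem_coe, mem_SF]
      exact cons_fill hc h1 h2 hp.1 b
    · intro σ hσ
      have hσ' : cons s t om op ∅ ω j σ := by simpa [mem_SF] using hσ
      funext v
      simp only [fill]
      split_ifs with h3
      · exact (cons_clus hσ' (hc ▸ h3)).symm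
      · rfl
    · rintro ⟨τ, b⟩ hp
      simp only [coe_product, Set.mem_prod, mem_coe, mem_univ, and_true, hR, mem_filter,
        mem_SF] at hp
      simp only [Prod.mk.injEq]
      constructor
      · funext v
        simp only [fill]
        split_ifs with h3
        · exact (hp.2 v h3).symm
        · rfl
      · simp [fill, hfU]
  have e2 : (SF s t om op ∅ (cl s t U ω) j).card = (R ×ˢ U.powerset).card := by
    refine card_nbij' (fun σ => (fill U false σ, U.filter fun v => σ v = true))
      (fun p => fun v => if v ∈ U then decide (v ∈ p.2) else p.1 v) ?_ ?_ ?_ ?_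
    · intro σ hσ
      have hσ' : cons s t om op ∅ (cl s t U ω) j σ := by simpa [mem_SF] using hσ
      simp only [coe_product, Set.mem_prod, mem_coe, hR, mem_filter, mem_SF, mem_powerset]
      refine ⟨⟨?_, fun v hv => by unfold fill; rw [if_pos hv]⟩, filter_subset _ _⟩
      refine ⟨fun e _ he => ?_, ?_, ?_⟩
      · by_cases h3 : e ∈ touch s t U
        · unfold cl at he
          rw [if_pos h3] at he
          simp at he
        · have h4 := hσ'.1 e (notMem_empty e) he
          rw [mem_touch, not_or] at h3
          unfold fill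
          rw [if_neg h3.1, if_neg h3.2]
          exact h4
      · unfold fill; rw [if_neg h1]; exact hσ'.2.1
      · unfold fill; rw [if_neg h2]; exact hσ'.2.2
    · rintro ⟨τ, B⟩ hp
      simp only [coe_product, Set.mem_prod, mem_coe, hR, mem_filter, mem_SF, mem_powerset] at hp
      simp only [mem_coe, mem_SF]
      refine ⟨fun e _ he => ?_, ?_, ?_⟩
      · by_cases h3 : e ∈ touch s t U
        · unfold cl at he
          rw [if_pos h3] at he
          simp at he
        · have h4 := hp.1.1.1 e (notMem_empty e) he
          rw [mem_touch, not_or] at h3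
          beta_reduce
          rw [if_neg h3.1, if_neg h3.2]
          exact h4
      · beta_reduce; rw [if_neg h1]; exact hp.1.1.2.1
      · beta_reduce; rw [if_neg h2]; exact hp.1.1.2.2
    · intro σ hσ
      funext v
      simp only [fill]
      by_cases h3 : v ∈ U
      · simp [h3]
      · simp [h3]
    · rintro ⟨τ, B⟩ hp
      simp only [coe_product, Set.mem_prod, mem_coe, hR, mem_filter, mem_SF, mem_powerset] at hp
      simp only [Prod.mk.injEq]
      constructor
      · funext v
        simp only [fill]
        split_ifs with h3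
        · exact (hp.1.2 v h3).symm
        · rfl
      · ext v
        simp only [mem_filter]
        constructor
        · rintro ⟨h3, h4⟩
          rw [if_pos h3] at h4
          simpa using h4
        · intro h3
          refine ⟨hp.2 h3, ?_⟩
          rw [if_pos (hp.2 h3)]
          simpa using h3
  rw [e1, e2, card_product, card_product, card_powerset, card_univ, Fintype.card_bool]
  ring

end clus

end Vale.Agent.P159.T1.H254
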