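import Vale.Agent.P159.T1.H254.UW1c

/-!
UW1, fourth part: gluing, conditional law given the cluster, `uw1f : StmtUW1f`.
-/

open Finset

namespace Vale.Agent.P159.T1.H254

lemma phi_false (β : ℝ) (i j : ℕ) : phi β i j false = clW β i j := by simp [phi]

lemma clW_zz (β : ℝ) : clW β 0 0 = β := by
  unfold clW; rw [if_pos ⟨rfl, rfl⟩]

lemma clW_l (β : ℝ) {i : ℕ} (j : ℕ) (h : i ≠ 0) : clW β i j = 0 := by
  unfold clW; rw [if_neg (fun h' => h h'.1)]

lemma clW_r (β : ℝ) (i : ℕ) {j : ℕ} (h : j ≠ 0) : clW β i j = 0 := by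
  unfold clW; rw [if_neg (fun h' => h h'.2)]

lemma edge0 (β : ℝ) (p : Prop) [Decidable p] (x : ℝ) :
    (if p then 1 else β) * x = x * (1 * (if p then 1 else phi β 0 0 false)) := by
  rw [phi_false, clW_zz]
  ring

lemma edge1 (β : ℝ) (p : Prop) [Decidable p] (i j : ℕ) :
    (if p then 1 else β) * phi β i j false =
      phi β i 0 false * ((if j = 0 then 1 else 0) * (if p then 1 else phi β 0 j false)) := by
  rw [phi_false, phi_false, phi_false]
  by_cases hi : i = 0
  · by_cases hj : j = 0
    · subst hi; subst hj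
      rw [clW_zz, if_pos rfl]
      ring
    · rw [clW_r β i hj, if_neg hj]
      ring
  · rw [clW_l β j hi, clW_l β 0 hi]
    ring

lemma edge2 (β : ℝ) (p : Prop) [Decidable p] (i j : ℕ) :
    (if p then 1 else β) * phi β i j false =
      phi β 0 j false * ((if i = 0 then 1 else 0) * (if p then 1 else phi β i 0 false)) := by
  rw [phi_false, phi_false, phi_false]
  by_cases hi : i = 0
  · by_cases hj : j = 0
    · subst hi; subst hj
      rw [clW_zz, if_pos rfl]
      ring
    · rw [clW_r β i hj, clW_r β 0 hj]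
      ring
  · rw [clW_l β j hi, if_neg hi]
    ring

section glue

set_option linter.unusedSectionVars false

variable {V E : Type} [Fintype V] [DecidableEq V] [Fintype E] [DecidableEq E]

/-- the configurations -/
abbrev Xc (V E : Type) (M : ℕ) : Type := (V → Fin M) × (E → Bool)

/-- `x` on `U` and the edges touching `U`, `y` elsewhere -/
def glue (s t : E → V) {M : ℕ} (U : Finset V) (x y : Xc V E M) : Xc V E M :=
  (fun v => if v ∈ U then x.1 v else y.1 v, fun e => if e ∈ touch s t U then x.2 e else y.2 e)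

lemma glue_sum (s t : E → V) {M : ℕ} (U : Finset V) (H : Xc V E M → Xc V E M → ℝ) :
    ∑ x, ∑ y, H (glue s t U x y) (glue s t U y x) = ∑ x, ∑ y, H x y := by
  have hinv : Function.Involutive (fun p : Xc V E M × Xc V E M =>
      (glue s t U p.1 p.2, glue s t U p.2 p.1)) := by
    rintro ⟨x, y⟩
    simp only [glue, Prod.mk.injEq]
    refine ⟨?_, ?_⟩
    · refine Prod.ext ?_ ?_
      · funext v; simp only; split_ifs <;> rfl
      · funext v; simp only; split_ifs <;> rfl
    · refine Prod.ext ?_ ?_
      · funext v; simp only; split_ifs <;> rfl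
      · funext v; simp only; split_ifs <;> rfl
  rw [← Fintype.sum_prod_type', ← Fintype.sum_prod_type']
  exact Fintype.sum_equiv hinv.toPerm _ _ fun p => rfl

lemma glue_card (s t : E → V) {M : ℕ} (U : Finset V) (h : Xc V E M → ℝ) :
    (Fintype.card (Xc V E M) : ℝ) * ∑ z, h z = ∑ x, ∑ y, h (glue s t U x y) := by
  rw [glue_sum s t U fun x _ => h x]
  simp [mul_sum]

/-- the zero configuration -/
def z0 {M : ℕ} (hM : 0 < M) : Xc V E M := (fun _ => ⟨0, hM⟩, fun _ => false)

/-- edge factor of the outer condition -/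
def Ae (s t : E → V) {M : ℕ} (U : Finset V) (y : Xc V E M) (e : E) : Prop :=
  (s e ∈ U ∨ (y.1 (s e) : ℕ) = 0) ∧ (t e ∈ U ∨ (y.1 (t e) : ℕ) = 0)

instance (s t : E → V) {M : ℕ} (U : Finset V) (y : Xc V E M) : DecidablePred (Ae s t U y) :=
  fun e => by unfold Ae; infer_instance

/-- the decreasing event -/
def Dp (s t : E → V) {M : ℕ} (U : Finset V) (y : Xc V E M) : Prop :=
  (∀ v ∈ U, (y.1 v : ℕ) = 0) ∧ ∀ e ∈ touch s t U, y.2 e = false ∧ Ae s t U y e

instance (s t : E → V) {M : ℕ} (U : Finset V) (y : Xc V E M) : Decidable (Dp s t U y) := by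
  unfold Dp; infer_instance

/-- the inner coordinates vanish -/
def Inz (s t : E → V) {M : ℕ} (U : Finset V) (x : Xc V E M) : Prop :=
  (∀ v ∈ U, (x.1 v : ℕ) = 0) ∧ ∀ e ∈ touch s t U, x.2 e = false

instance (s t : E → V) {M : ℕ} (U : Finset V) (y : Xc V E M) : Decidable (Inz s t U y) := by
  unfold Inz; infer_instance

lemma Dp_glue (s t : E → V) {M : ℕ} (U : Finset V) (x y : Xc V E M) :
    Dp s t U (glue s t U x y) ↔ Inz s t U x ∧ ∀ e ∈ touch s t U, Ae s t U y e := by
  unfold Dp Inz Ae glue
  constructor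
  · rintro ⟨h1, h2⟩
    refine ⟨⟨fun v hv => ?_, fun e he => ?_⟩, fun e he => ⟨?_, ?_⟩⟩
    · have := h1 v hv
      simpa [hv] using this
    · have := (h2 e he).1
      simpa [he] using this
    · by_cases h3 : s e ∈ U
      · exact Or.inl h3
      · have := (h2 e he).2.1
        simpa [h3] using this
    · by_cases h3 : t e ∈ U
      · exact Or.inl h3
      · have := (h2 e he).2.2
        simpa [h3] using this
  · rintro ⟨⟨h1, h2⟩, h3⟩
    refine ⟨fun v hv => ?_, fun e he => ⟨?_, ?_, ?_⟩⟩
    · simpa [hv] using h1 v hv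
    · simpa [he] using h2 e he
    · by_cases h4 : s e ∈ U
      · exact Or.inl h4
      · have := (h3 e he).1
        simpa [h4] using this
    · by_cases h4 : t e ∈ U
      · exact Or.inl h4
      · have := (h3 e he).2
        simpa [h4] using this

lemma Inz_glue {s t : E → V} {M : ℕ} (hM : 0 < M) {U : Finset V} {x : Xc V E M}
    (h : Inz s t U x) (y : Xc V E M) : glue s t U x y = glue s t U (z0 hM) y := by
  unfold glue z0
  refine Prod.ext ?_ ?_
  · funext v
    simp only
    split_ifs with h1
    · exact Fin.ext (h.1 v h1)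
    · rfl
  · funext e
    simp only
    split_ifs with h1
    · exact h.2 e h1
    · rfl

lemma glue_cl {s t : E → V} {M : ℕ} (hM : 0 < M) (U : Finset V) (x y : Xc V E M) :
    (glue s t U (z0 hM) y).2 = cl s t U (glue s t U x y).2 := by
  funext e
  simp only [glue, z0, cl]
  split_ifs <;> rfl

/-- inner weight -/
noncomputable def g1 (s t : E → V) {M : ℕ} (hM : 0 < M) (β : E → ℝ) (f : V) (U : Finset V)
    (x : Xc V E M) : ℝ :=
  if clus s t f x.2 = U then ∏ e ∈ touch s t U, phi (β e) ((glue s t U x (z0 hM)).1 (s e))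
    ((glue s t U x (z0 hM)).1 (t e)) (x.2 e) else 0

lemma clus_glue {s t : E → V} {M : ℕ} {f : V} {U : Finset V} {x y : Xc V E M} :
    clus s t f (glue s t U x y).2 = U ↔ clus s t f x.2 = U := by
  constructor
  · exact clus_congr fun e he => by simp only [glue, if_pos he]
  · exact clus_congr fun e he => by simp only [glue, if_pos he]

/-- the weight given the cluster -/
lemma key {s t : E → V} {M : ℕ} (hM : 0 < M) (β : E → ℝ) {om op f : V} {U : Finset V}
    (h1 : om ∉ U) (h2 : op ∉ U) (F : Finset E) (hF : F ⊆ touch s t U) (x y : Xc V E M) :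
    (∏ e ∈ touch s t U, if e ∈ F then 1 else β e) * 2 ^ U.card *
      (if clus s t f (glue s t U x y).2 = U then mu s t M β om op ∅ (glue s t U x y) else 0) =
    2 * (g1 s t hM β f U x * ((if ∀ e ∈ touch s t U, Ae s t U y e then 1 else 0) *
      mu s t M β om op F (glue s t U (z0 hM) y))) := by
  by_cases hc : clus s t f (glue s t U x y).2 = U
  · have hc' := clus_glue.mp hc
    rw [if_pos hc]
    unfold g1
    rw [if_pos hc']
    have hcard : (2 : ℝ) ^ U.card * ((SF s t om op ∅ (glue s t U x y).2 false).card : ℝ) =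
        2 * ((SF s t om op F (glue s t U (z0 hM) y).2 false).card : ℝ) := by
      rw [glue_cl hM U x y, SF_cl_eq hF]
      exact_mod_cast card_SF_clus hc h1 h2 false
    have hbc : (((glue s t U x y).1 om : ℕ) = 0 ∧ ((glue s t U x y).1 op : ℕ) = 0) ↔
        (((glue s t U (z0 hM) y).1 om : ℕ) = 0 ∧ ((glue s t U (z0 hM) y).1 op : ℕ) = 0) := by
      simp only [glue, if_neg h1, if_neg h2]
    have hout : (∏ e ∈ (touch s t U)ᶜ, if e ∈ (∅ : Finset E) then (1 : ℝ) else
        phi (β e) ((glue s t U x y).1 (s e)) ((glue s t U x y).1 (t e)) ((glue s t U x y).2 e)) =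
        ∏ e ∈ (touch s t U)ᶜ, if e ∈ F then (1 : ℝ) else
        phi (β e) ((glue s t U (z0 hM) y).1 (s e)) ((glue s t U (z0 hM) y).1 (t e))
          ((glue s t U (z0 hM) y).2 e) := by
      refine prod_congr rfl fun e he => ?_
      have he' : e ∉ touch s t U := by simpa using he
      have he2 : e ∉ F := fun h => he' (hF h)
      rw [if_neg (notMem_empty e), if_neg he2]
      have he3 := he'
      rw [mem_touch, not_or] at he3
      simp only [glue, if_neg he3.1, if_neg he3.2, if_neg he']
    have hin : (∏ e ∈ touch s t U, if e ∈ F then 1 else β e) *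
        (∏ e ∈ touch s t U, if e ∈ (∅ : Finset E) then (1 : ℝ) else
        phi (β e) ((glue s t U x y).1 (s e)) ((glue s t U x y).1 (t e)) ((glue s t U x y).2 e)) =
        (∏ e ∈ touch s t U, phi (β e) ((glue s t U x (z0 hM)).1 (s e))
          ((glue s t U x (z0 hM)).1 (t e)) (x.2 e)) *
        ((if ∀ e ∈ touch s t U, Ae s t U y e then 1 else 0) *
        ∏ e ∈ touch s t U, if e ∈ F then (1 : ℝ) else
        phi (β e) ((glue s t U (z0 hM) y).1 (s e)) ((glue s t U (z0 hM) y).1 (t e))
          ((glue s t U (z0 hM) y).2 e)) := by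
      have hA : (if ∀ e ∈ touch s t U, Ae s t U y e then (1 : ℝ) else 0) =
          ∏ e ∈ touch s t U, if Ae s t U y e then 1 else 0 := by
        rw [prod_ite_zero]
        simp
      rw [hA, ← prod_mul_distrib, ← prod_mul_distrib, ← prod_mul_distrib]
      refine prod_congr rfl fun e he => ?_
      rw [if_neg (notMem_empty e)]
      have hω : (glue s t U x y).2 e = x.2 e := by simp only [glue, if_pos he]
      have hω0 : (glue s t U (z0 hM) y).2 e = false := by simp only [glue, if_pos he, z0]
      rw [hω, hω0]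
      by_cases hs : s e ∈ U
      · by_cases ht : t e ∈ U
        · have hA1 : Ae s t U y e := ⟨Or.inl hs, Or.inl ht⟩
          rw [if_pos hA1]
          simp only [glue, if_pos hs, if_pos ht, z0]
          exact edge0 _ _ _
        · have hx : x.2 e = false := by
            by_contra h3
            have h3' : x.2 e = true := by simpa using h3
            have := clus_edge (f := f) (s := s) (t := t) h3'
            rw [hc'] at this
            exact ht (this.mp hs)
          rw [hx]
          have hA1 : Ae s t U y e ↔ (y.1 (t e) : ℕ) = 0 := by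
            simp [Ae, hs, ht]
          rw [if_congr hA1 rfl rfl]
          simp only [glue, if_pos hs, if_neg ht, z0]
          exact edge1 _ _ _ _
      · have ht : t e ∈ U := by
          rw [mem_touch] at he
          exact he.resolve_left hs
        have hx : x.2 e = false := by
          by_contra h3
          have h3' : x.2 e = true := by simpa using h3
          have := clus_edge (f := f) (s := s) (t := t) h3'
          rw [hc'] at this
          exact hs (this.mpr ht)
        rw [hx]
        have hA1 : Ae s t U y e ↔ (y.1 (s e) : ℕ) = 0 := by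
          simp [Ae, hs, ht]
        rw [if_congr hA1 rfl rfl]
        simp only [glue, if_neg hs, if_pos ht, z0]
        exact edge2 _ _ _ _
    unfold mu
    rw [← prod_mul_prod_compl (touch s t U), ← prod_mul_prod_compl (touch s t U) (fun e =>
      if e ∈ F then (1 : ℝ) else _), hout]
    have hbc' : (if ((glue s t U x y).1 om : ℕ) = 0 ∧ ((glue s t U x y).1 op : ℕ) = 0 then
        (1 : ℝ) else 0) = if ((glue s t U (z0 hM) y).1 om : ℕ) = 0 ∧
          ((glue s t U (z0 hM) y).1 op : ℕ) = 0 then 1 else 0 := if_congr hbc rfl rfl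
    rw [hbc']
    linear_combination
      (2 * ((if ((glue s t U (z0 hM) y).1 om : ℕ) = 0 ∧
          ((glue s t U (z0 hM) y).1 op : ℕ) = 0 then (1 : ℝ) else 0) *
        ((SF s t om op F (glue s t U (z0 hM) y).2 false).card : ℝ) *
        ∏ e ∈ (touch s t U)ᶜ, if e ∈ F then (1 : ℝ) else
        phi (β e) ((glue s t U (z0 hM) y).1 (s e)) ((glue s t U (z0 hM) y).1 (t e))
          ((glue s t U (z0 hM) y).2 e))) * hin +
      ((∏ e ∈ touch s t U, if e ∈ F then 1 else β e) *
        (∏ e ∈ touch s t U, if e ∈ (∅ : Finset E) then (1 : ℝ) else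
        phi (β e) ((glue s t U x y).1 (s e)) ((glue s t U x y).1 (t e)) ((glue s t U x y).2 e)) *
        (if ((glue s t U (z0 hM) y).1 om : ℕ) = 0 ∧
          ((glue s t U (z0 hM) y).1 op : ℕ) = 0 then (1 : ℝ) else 0) *
        ∏ e ∈ (touch s t U)ᶜ, if e ∈ F then (1 : ℝ) else
        phi (β e) ((glue s t U (z0 hM) y).1 (s e)) ((glue s t U (z0 hM) y).1 (t e))
          ((glue s t U (z0 hM) y).2 e)) * hcard
  · rw [if_neg hc, mul_zero]
    unfold g1
    rw [if_neg (fun h => hc (clus_glue.mpr h))]
    ring

end glue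

end Vale.Agent.P159.T1.H254
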