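import Vale.Agent.P159.T1.H254.UW1d

/-!
UW1, fifth part: `uw1f : StmtUW1f`.
-/

open Finset

namespace Vale.Agent.P159.T1.H254

section fin

set_option linter.unusedSectionVars false

variable {V E : Type} [Fintype V] [DecidableEq V] [Fintype E] [DecidableEq E]

/-- the common outer sum -/
noncomputable def outS (s t : E → V) {M : ℕ} (hM : 0 < M) (β : E → ℝ) (om op : V) (U : Finset V)
    (F : Finset E) (T : (E → Bool) → ℝ) : ℝ :=
  ∑ y : Xc V E M, (if ∀ e ∈ touch s t U, Ae s t U y e then 1 else 0) *
      mu s t M β om op F (glue s t U (z0 hM) y) * T (glue s t U (z0 hM) y).2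

lemma P_eq {s t : E → V} {M : ℕ} (hM : 0 < M) (β : E → ℝ) {om op f : V} {U : Finset V}
    (h1 : om ∉ U) (h2 : op ∉ U) (F : Finset E) (hF : F ⊆ touch s t U) (T T' : (E → Bool) → ℝ)
    (hT : ∀ ω, clus s t f ω = U → T ω = T' (cl s t U ω)) :
    (Fintype.card (Xc V E M) : ℝ) * ((∏ e ∈ touch s t U, if e ∈ F then 1 else β e) *
      2 ^ U.card * ∑ z : Xc V E M, if clus s t f z.2 = U then
        mu s t M β om op ∅ z * T z.2 else 0) =
    2 * (∑ x : Xc V E M, g1 s t hM β f U x) * outS s t hM β om op U F T' := by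
  have e1 := glue_card s t U (fun z : Xc V E M => if clus s t f z.2 = U then
        mu s t M β om op ∅ z * T z.2 else 0)
  calc _ = (∏ e ∈ touch s t U, if e ∈ F then 1 else β e) * 2 ^ U.card *
      ((Fintype.card (Xc V E M) : ℝ) * ∑ z : Xc V E M, if clus s t f z.2 = U then
        mu s t M β om op ∅ z * T z.2 else 0) := by ring
    _ = _ := by
      rw [e1]
      unfold outS
      rw [mul_assoc 2, sum_mul_sum, mul_sum, mul_sum]
      refine sum_congr rfl fun x _ => ?_
      rw [mul_sum, mul_sum]
      refine sum_congr rfl fun y _ => ?_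
      have e2 := key hM β h1 h2 F hF x y (f := f)
      by_cases hc : clus s t f (glue s t U x y).2 = U
      · rw [if_pos hc] at e2 ⊢
        rw [hT _ hc, ← glue_cl hM]
        linear_combination (T' (glue s t U (z0 hM) y).2) * e2
      · rw [if_neg hc]
        have e3 : g1 s t hM β f U x = 0 := by
          unfold g1
          rw [if_neg (fun h => hc (clus_glue.mpr h))]
        rw [e3]
        ring

lemma Q_eq {s t : E → V} {M : ℕ} (hM : 0 < M) (β : E → ℝ) {om op : V} {U : Finset V}
    (F : Finset E) (T' : (E → Bool) → ℝ) :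
    (Fintype.card (Xc V E M) : ℝ) * (∑ z : Xc V E M, mu s t M β om op F z *
      ((if Dp s t U z then 1 else 0) * T' z.2)) =
    (∑ x : Xc V E M, if Inz s t U x then (1 : ℝ) else 0) * outS s t hM β om op U F T' := by
  rw [glue_card s t U]
  unfold outS
  rw [sum_mul_sum]
  refine sum_congr rfl fun x _ => ?_
  refine sum_congr rfl fun y _ => ?_
  by_cases hx : Inz s t U x
  · rw [if_pos hx, Inz_glue hM hx y]
    have h3 : Dp s t U (glue s t U (z0 hM) y) ↔ ∀ e ∈ touch s t U, Ae s t U y e := by
      rw [← Inz_glue hM hx y, Dp_glue]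
      exact ⟨fun h => h.2, fun h => ⟨hx, h⟩⟩
    rw [if_congr h3 rfl rfl]
    ring
  · rw [if_neg hx, if_neg (fun h => hx ((Dp_glue s t U x y).mp h).1)]
    ring

lemma Dp_anti (s t : E → V) {M : ℕ} (U : Finset V) :
    Antitone (fun z : Xc V E M => (if Dp s t U z then (1 : ℝ) else 0)) := by
  intro x y hxy
  simp only
  by_cases hy : Dp s t U y
  · have hx : Dp s t U x := by
      have ha : ∀ v, (y.1 v : ℕ) = 0 → (x.1 v : ℕ) = 0 := fun v hv => by
        have := Fin.le_def.mp (hxy.1 v)
        omega
      refine ⟨fun v hv => ha v (hy.1 v hv), fun e he => ⟨?_, ?_, ?_⟩⟩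
      · have h3 := hxy.2 e
        rw [(hy.2 e he).1] at h3
        exact le_bot_iff.mp h3
      · exact (hy.2 e he).2.1.imp_right (ha _)
      · exact (hy.2 e he).2.2.imp_right (ha _)
    rw [if_pos hx, if_pos hy]
  · rw [if_neg hy]
    split_ifs <;> norm_num

lemma dis_antitone (s t : E → V) {M : ℕ} (om op : V) (F : Finset E) :
    Antitone (fun z : Xc V E M => (if dis s t om op F z.2 then (1 : ℝ) else 0)) := by
  intro x y hxy
  simp only
  by_cases hy : dis s t om op F y.2
  · rw [if_pos hy, if_pos (dis_anti hxy.2 hy)]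
  · rw [if_neg hy]
    split_ifs <;> norm_num

/-- given the cluster `U` of `f`, the disconnection has at least the probability which it has
without `f` -/
lemma cond_le {s t : E → V} {M : ℕ} (hM : 0 < M) {β : E → ℝ} (hβ : ∀ e, 0 < β e ∧ β e ≤ 1 / 2)
    {om op f : V} {U : Finset V} (h1 : om ∉ U) (h2 : op ∉ U) (hf : f ∈ U) :
    (∑ z : Xc V E M, if clus s t f z.2 = U then mu s t M β om op ∅ z else 0) *
      ZF s t M β om op (touch s t {f}) true ≤
    (∑ z : Xc V E M, if clus s t f z.2 = U then mu s t M β om op ∅ z *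
      (if dis s t om op ∅ z.2 then 1 else 0) else 0) *
      ZF s t M β om op (touch s t {f}) false := by
  set F := touch s t {f} with hFdef
  have hF : F ⊆ touch s t U := by
    intro e he
    rw [hFdef, mem_touch, mem_singleton, mem_singleton] at he
    rw [mem_touch]
    rcases he with he | he
    · left; rw [he]; exact hf
    · right; rw [he]; exact hf
  have hβ' : ∀ e, 0 ≤ β e ∧ β e ≤ 1 / 2 := fun e => ⟨(hβ e).1.le, (hβ e).2⟩
  have e1 := P_eq hM β (f := f) h1 h2 F hF (fun _ => 1) (fun _ => 1) (fun _ _ => rfl)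
  have e2 := P_eq hM β (f := f) h1 h2 F hF (fun ω => if dis s t om op ∅ ω then 1 else 0)
    (fun ω => if dis s t om op F ω then 1 else 0) (fun ω hc => by
      rw [if_congr ((dis_cl_iff hF).trans (dis_cl hc h1 h2)) rfl rfl])
  have e3 := Q_eq (s := s) (t := t) hM β (om := om) (op := op) (U := U) F (fun _ => 1)
  have e4 := Q_eq (s := s) (t := t) hM β (om := om) (op := op) (U := U) F
    (fun ω => if dis s t om op F ω then 1 else 0)
  have e5 := fkg_anti (s := s) (t := t) hβ' om op F
    (f := fun z : Xc V E M => (if Dp s t U z then (1 : ℝ) else 0))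
    (g := fun z : Xc V E M => (if dis s t om op F z.2 then (1 : ℝ) else 0))
    (fun z => by simp only [Pi.zero_apply]; split_ifs <;> norm_num)
    (fun z => by simp only [Pi.zero_apply]; split_ifs <;> norm_num)
    (Dp_anti s t U) (dis_antitone s t om op F)
  rw [sum_mu_dis, sum_mu] at e5
  simp only [mul_one] at e1 e3
  set X : ℝ := (Fintype.card (Xc V E M) : ℝ) with hX
  set c : ℝ := (∏ e ∈ touch s t U, if e ∈ F then 1 else β e) * 2 ^ U.card with hc
  set G : ℝ := ∑ x : Xc V E M, g1 s t hM β f U x with hG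
  set N : ℝ := ∑ x : Xc V E M, if Inz s t U x then (1 : ℝ) else 0 with hN
  set S1 := outS s t hM β om op U F (fun _ => 1) with hS1
  set S2 := outS s t hM β om op U F (fun ω => if dis s t om op F ω then 1 else 0) with hS2
  have hXpos : 0 < X := by
    have : Nonempty (Xc V E M) := ⟨z0 hM⟩
    rw [hX]
    exact_mod_cast Fintype.card_pos
  have hcpos : 0 < c := by
    refine mul_pos (prod_pos fun e _ => ?_) (by positivity)
    split_ifs
    · exact one_pos
    · exact (hβ e).1
  have hNpos : 0 < N := by
    refine sum_pos' (fun x _ => by split_ifs <;> norm_num) ⟨z0 hM, mem_univ _, ?_⟩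
    rw [if_pos]
    · exact one_pos
    · exact ⟨fun v _ => rfl, fun e _ => rfl⟩
  have hGnn : 0 ≤ G := by
    refine sum_nonneg fun x _ => ?_
    unfold g1
    split_ifs
    · exact prod_nonneg fun e _ => phi_nonneg (hβ' e).1 (hβ' e).2 _ _ _
    · exact le_rfl
  have hpow : (0 : ℝ) < 2 ^ F.card := by positivity
  -- the correlation inequality in terms of `S1`, `S2`
  have e6 : N * S1 * ZF s t M β om op F true ≤ N * S2 * ZF s t M β om op F false := by
    rw [← e3, ← e4]
    have e7 := mul_le_mul_of_nonneg_left e5 hXpos.le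
    have e8 : (2 : ℝ) ^ F.card * ((X * ∑ z : Xc V E M, mu s t M β om op F z *
        if Dp s t U z then 1 else 0) * ZF s t M β om op F true) ≤
        (2 : ℝ) ^ F.card * ((X * ∑ z : Xc V E M, mu s t M β om op F z *
        ((if Dp s t U z then 1 else 0) * if dis s t om op F z.2 then 1 else 0)) *
        ZF s t M β om op F false) := by
      calc _ = X * ((∑ z : Xc V E M, mu s t M β om op F z *
          if Dp s t U z then 1 else 0) * (2 ^ F.card * ZF s t M β om op F true)) := by ring
        _ ≤ _ := e7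
        _ = _ := by ring
    exact le_of_mul_le_mul_left e8 hpow
  have e9 : S1 * ZF s t M β om op F true ≤ S2 * ZF s t M β om op F false := by
    refine le_of_mul_le_mul_left ?_ hNpos
    calc _ = N * S1 * ZF s t M β om op F true := by ring
      _ ≤ _ := e6
      _ = _ := by ring
  have hXc : 0 < X * c := mul_pos hXpos hcpos
  refine le_of_mul_le_mul_left ?_ hXc
  calc _ = (X * (c * ∑ z : Xc V E M, if clus s t f z.2 = U then mu s t M β om op ∅ z else 0)) *
        ZF s t M β om op F true := by ring
    _ = 2 * G * (S1 * ZF s t M β om op F true) := by rw [e1]; ring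
    _ ≤ 2 * G * (S2 * ZF s t M β om op F false) :=
        mul_le_mul_of_nonneg_left e9 (by positivity)
    _ = (X * (c * ∑ z : Xc V E M, if clus s t f z.2 = U then mu s t M β om op ∅ z *
        (if dis s t om op ∅ z.2 then 1 else 0) else 0)) * ZF s t M β om op F false := by
        rw [e2]; ring
    _ = _ := by ring

/-- the sum over the clusters which avoid `om` and `op` -/
lemma sum_clus {s t : E → V} {M : ℕ} {om op f : V} (h : Xc V E M → ℝ) :
    ∑ U ∈ (univ : Finset (Finset V)).filter (fun U => om ∉ U ∧ op ∉ U ∧ f ∈ U),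
      (∑ z : Xc V E M, if clus s t f z.2 = U then h z else 0) =
    ∑ z : Xc V E M, if om ∉ clus s t f z.2 ∧ op ∉ clus s t f z.2 then h z else 0 := by
  rw [sum_comm]
  refine sum_congr rfl fun z _ => ?_
  rw [sum_ite_eq]
  refine if_congr ?_ rfl rfl
  simp only [mem_filter, mem_univ, true_and]
  exact ⟨fun h => ⟨h.1, h.2.1⟩, fun h => ⟨h.1, h.2, f_mem_clus⟩⟩

/-- half of the sign functions are `true` at `f` if the cluster of `f` avoids `om` and `op` -/
lemma card_half {s t : E → V} {om op f : V} (ω : E → Bool) :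
    2 * (univ.filter fun σ : V → Bool =>
        (∀ e, e ∉ (∅ : Finset E) → ω e = true → σ (s e) = σ (t e)) ∧
          (σ om = false ∧ σ op = false ∧ σ f = true)).card =
      if om ∉ clus s t f ω ∧ op ∉ clus s t f ω then (SF s t om op ∅ ω false).card else 0 := by
  have hset : (univ.filter fun σ : V → Bool =>
        (∀ e, e ∉ (∅ : Finset E) → ω e = true → σ (s e) = σ (t e)) ∧
          (σ om = false ∧ σ op = false ∧ σ f = true)) =
      (SF s t om op ∅ ω false).filter fun σ => σ f = true := by
    ext σ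
    simp only [mem_filter, mem_univ, true_and, mem_SF, cons]
    tauto
  rw [hset]
  split_ifs with hc
  · -- flip
    have e1 : ((SF s t om op ∅ ω false).filter fun σ => σ f = true).card =
        ((SF s t om op ∅ ω false).filter fun σ => ¬ σ f = true).card := by
      have hflip : ∀ σ, cons s t om op ∅ ω false σ →
          cons s t om op ∅ ω false (xr (fun v => decide (v ∈ clus s t f ω)) σ) := by
        intro σ hσ
        refine ⟨fun e he ho => ?_, ?_, ?_⟩
        · have h3 := clus_edge (f := f) (s := s) (t := t) ho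
          simp only [xr]
          rw [hσ.1 e he ho]
          congr 1
          exact decide_eq_decide.mpr h3
        · simp only [xr, hc.1, hσ.2.1]; rfl
        · simp only [xr, hc.2, hσ.2.2]; rfl
      refine card_nbij' (fun σ => xr (fun v => decide (v ∈ clus s t f ω)) σ)
        (fun σ => xr (fun v => decide (v ∈ clus s t f ω)) σ) ?_ ?_ ?_ ?_
      · intro σ hσ
        simp only [coe_filter, mem_SF, Set.mem_ofPred_eq] at hσ ⊢
        refine ⟨hflip σ hσ.1, ?_⟩
        simp [xr, f_mem_clus, hσ.2]
      · intro σ hσ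
        simp only [coe_filter, mem_SF, Set.mem_ofPred_eq] at hσ ⊢
        refine ⟨hflip σ hσ.1, ?_⟩
        simp only [Bool.not_eq_true] at hσ
        simp [xr, f_mem_clus, hσ.2]
      · intro σ _
        exact xr_xr _ _
      · intro σ _
        exact xr_xr _ _
    have e2 := card_filter_add_card_filter_not (s := SF s t om op ∅ ω false)
      (p := fun σ => σ f = true)
    omega
  · rw [mul_eq_zero]
    right
    rw [card_eq_zero, eq_empty_iff_forall_notMem]
    intro σ hσ
    rw [mem_filter, mem_SF] at hσ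
    rw [not_and_or, not_not, not_not] at hc
    rcases hc with hc | hc
    · have := cons_clus hσ.1 hc
      rw [hσ.1.2.1, hσ.2] at this
      simp at this
    · have := cons_clus hσ.1 hc
      rw [hσ.1.2.2, hσ.2] at this
      simp at this

lemma two_ZFP {s t : E → V} {M : ℕ} {β : E → ℝ} {om op f : V} :
    2 * ZFP s t M β om op f = ∑ z : Xc V E M, if om ∉ clus s t f z.2 ∧ op ∉ clus s t f z.2 then
      mu s t M β om op ∅ z else 0 := by
  unfold ZFP mu
  rw [Fintype.sum_prod_type, mul_sum]
  refine sum_congr rfl fun a _ => ?_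
  have h := es s t β ∅ a (fun σ => σ om = false ∧ σ op = false ∧ σ f = true)
  rw [card_empty, pow_zero, one_mul] at h
  by_cases h0 : (a om : ℕ) = 0 ∧ (a op : ℕ) = 0
  · have e1 : (∑ σ : V → Bool, if (a om : ℕ) = 0 ∧ (a op : ℕ) = 0 ∧ σ om = false ∧
        σ op = false ∧ σ f = true then
        ∏ e, ker 1 (β e) (hgt (a (t e)) (σ (t e)) - hgt (a (s e)) (σ (s e))) else 0) =
        ∑ σ : V → Bool, if σ om = false ∧ σ op = false ∧ σ f = true then
      ∏ e ∈ (∅ : Finset E)ᶜ, ker 1 (β e) (hgt (a (t e)) (σ (t e)) -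
        hgt (a (s e)) (σ (s e))) else 0 := by
      refine sum_congr rfl fun σ _ => ?_
      rw [compl_empty]
      refine if_congr ?_ rfl rfl
      simp [h0.1, h0.2]
    rw [e1, ← h, mul_sum]
    refine sum_congr rfl fun ω _ => ?_
    have e2 := card_half (s := s) (t := t) (om := om) (op := op) (f := f) ω
    have e3 : (2 : ℝ) * ((univ.filter fun σ : V → Bool =>
        (∀ e, e ∉ (∅ : Finset E) → ω e = true → σ (s e) = σ (t e)) ∧
          (σ om = false ∧ σ op = false ∧ σ f = true)).card : ℝ) =
      if om ∉ clus s t f ω ∧ op ∉ clus s t f ω then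
        ((SF s t om op ∅ ω false).card : ℝ) else 0 := by
      have e4 : ((2 * (univ.filter fun σ : V → Bool =>
        (∀ e, e ∉ (∅ : Finset E) → ω e = true → σ (s e) = σ (t e)) ∧
          (σ om = false ∧ σ op = false ∧ σ f = true)).card : ℕ) : ℝ) =
          ((if om ∉ clus s t f ω ∧ op ∉ clus s t f ω then
            (SF s t om op ∅ ω false).card else 0 : ℕ) : ℝ) := by rw [e2]
      push_cast at e4
      exact e4
    calc _ = (∏ e, if e ∈ (∅ : Finset E) then (1 : ℝ) else
          phi (β e) (a (s e)) (a (t e)) (ω e)) * (2 * ((univ.filter fun σ : V → Bool =>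
        (∀ e, e ∉ (∅ : Finset E) → ω e = true → σ (s e) = σ (t e)) ∧
          (σ om = false ∧ σ op = false ∧ σ f = true)).card : ℝ)) := by ring
      _ = _ := by
        rw [e3]
        simp only [if_pos h0]
        split_ifs
        · ring
        · ring
  · symm
    have e1 : ∀ ω : E → Bool, (if om ∉ clus s t f ω ∧ op ∉ clus s t f ω then
      (∏ e, if e ∈ (∅ : Finset E) then (1 : ℝ) else phi (β e) (a (s e)) (a (t e)) (ω e)) *
        (if (a om : ℕ) = 0 ∧ (a op : ℕ) = 0 then 1 else 0) *
        ((SF s t om op ∅ ω false).card : ℝ) else 0) = 0 := fun ω => by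
      rw [if_neg h0]
      split_ifs
      · ring
      · rfl
    simp only [e1, sum_const_zero]
    symm
    rw [mul_eq_zero]
    right
    refine sum_eq_zero fun σ _ => ?_
    rw [if_neg (fun h => h0 ⟨h.1, h.2.1⟩)]

end fin

/-- UW1 -/
theorem uw1f : StmtUW1f := by
  intro V E _ _ _ _ s t M β om op f hM hβ hf1 hf2 hoo
  have hβ' : ∀ e, 0 ≤ β e ∧ β e ≤ 1 / 2 := fun e => ⟨(hβ e).1.le, (hβ e).2⟩
  rw [two_ZFP, ← sum_clus, sum_mul]
  have hZ := (ZF_pos s t hM β hβ' om op (touch s t {f})).le
  have e2 : ∑ U ∈ (univ : Finset (Finset V)).filter (fun U => om ∉ U ∧ op ∉ U ∧ f ∈ U),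
      (∑ z : Xc V E M, if clus s t f z.2 = U then mu s t M β om op ∅ z *
        (if dis s t om op ∅ z.2 then 1 else 0) else 0) ≤ ZF s t M β om op ∅ true := by
    rw [sum_clus]
    have e3 := sum_mu_dis s t (M := M) β om op ∅
    rw [card_empty, pow_zero, one_mul] at e3
    rw [← e3]
    refine sum_le_sum fun z _ => ?_
    split_ifs
    · exact le_rfl
    · exact le_rfl
    · rw [mul_one]
      exact mu_nonneg hβ' _ _ _ _
    · rw [mul_zero]
  refine le_trans ?_ (mul_le_mul_of_nonneg_right e2 hZ)
  rw [sum_mul]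
  refine sum_le_sum fun U hU => ?_
  simp only [mem_filter, mem_univ, true_and] at hU
  exact cond_le hM hβ hU.1 hU.2.1 hU.2.2

end Vale.Agent.P159.T1.H254
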