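import Vale.Agent.P159.T1.H254.UWDefsB

/-!
Set form of the unwiring inequality (plan 109 (a) of helper568): a whole set `B` of height
vertices is deleted; the price is the probability that the `{h ≤ 0}` cluster of `om`, `op`
misses `B`.
-/

open Filter Topology

namespace Vale.Agent.P159.T1.H254

open Vale.Agent.P159.H353

section defs

variable {V E : Type} [Fintype V] [DecidableEq V] [Fintype E] [DecidableEq E]

/-- `x` and `y` are neighbours, both with height `≤ 0` -/
def lowA (s t : E → V) (h : V → ℤ) (x y : V) : Prop :=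
  h x ≤ 0 ∧ h y ≤ 0 ∧ ∃ e, (s e = x ∧ t e = y) ∨ (s e = y ∧ t e = x)

/-- the clusters of `om` and `op` in `{h ≤ 0}` miss `B` -/
def Miss (s t : E → V) (om op : V) (B : Finset V) (h : V → ℤ) : Prop :=
  ∀ v ∈ B, ¬ Relation.ReflTransGen (lowA s t h) om v ∧ ¬ Relation.ReflTransGen (lowA s t h) op v

/-- the sum over the heights which are `0` at `om` and `op` and miss `B` -/
noncomputable def ZM (s t : E → V) (w : E → ℤ → ℝ) (om op : V) (B : Finset V) : ℝ :=
  ∑' h : {h : V → ℤ // h om = 0 ∧ h op = 0 ∧ Miss s t om op B h},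
    ∏ e, w e (h.1 (t e) - h.1 (s e))

open Classical in
/-- the same in the finite model -/
noncomputable def ZFM (s t : E → V) (M : ℕ) (β : E → ℝ) (om op : V) (B : Finset V) : ℝ :=
  ∑ a : V → Fin M, ∑ σ : V → Bool,
    if (a om : ℕ) = 0 ∧ (a op : ℕ) = 0 ∧ σ om = false ∧ σ op = false ∧
      Miss s t om op B (fun v => hgt (a v) (σ v)) then
      ∏ e, ker 1 (β e) (hgt (a (t e)) (σ (t e)) - hgt (a (s e)) (σ (s e))) else 0

end defs

/-- UW1, set form (finite core) -/
def StmtUW1B : Prop :=
  ∀ (V E : Type) [Fintype V] [DecidableEq V] [Fintype E] [DecidableEq E] (s t : E → V)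
    (M : ℕ) (β : E → ℝ) (om op : V) (B : Finset V), 0 < M → (∀ e, 0 < β e ∧ β e ≤ 1 / 2) →
    om ∉ B → op ∉ B →
    ZFM s t M β om op B * ZF s t M β om op (touch s t B) true ≤
      ZF s t M β om op ∅ true * ZF s t M β om op (touch s t B) false

/-- UW2, set form (subdivision; in the subdivided graph the interior vertices of the cables with
both ends in `B` are added to `B`) -/
def StmtUW2B : Prop :=
  ∀ (V E : Type) [Fintype V] [DecidableEq V] [Fintype E] [DecidableEq E] (s t : E → V)
    (J : E → ℝ) (om op : V) (B : Finset V), (∀ e, 0 < J e) →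
    Joined s t om op ∅ → Joined s t om op B →
    ∀ m : ℕ, 0 < m → (∀ e, J e ≤ m) →
    ZM s t (fun e => kerP (J e / (2 * m)) m) om op B *
        ZS s t (fun e => kerP (J e / (2 * m)) m) om op B 1 ≤
      ZS s t (fun e => kerP (J e / (2 * m)) m) om op ∅ 1 *
        ZS s t (fun e => kerP (J e / (2 * m)) m) om op B 0

/-- UW3, set form (limit `m → ∞`) -/
def StmtUW3B : Prop :=
  ∀ (V E : Type) [Fintype V] [DecidableEq V] [Fintype E] [DecidableEq E] (s t : E → V)
    (J : E → ℝ) (om op : V), (∀ e, 0 ≤ J e) → Joined s t om op ∅ →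
    (∀ S : Finset V, Joined s t om op S → ∀ k : ℤ,
      Tendsto (fun m : ℕ => ZS s t (fun e => kerP (J e / (2 * m)) m) om op S k) atTop
        (𝓝 (ZS s t (fun e => wI (J e)) om op S k))) ∧
    ∀ B : Finset V, Tendsto (fun m : ℕ => ZM s t (fun e => kerP (J e / (2 * m)) m) om op B) atTop
        (𝓝 (ZM s t (fun e => wI (J e)) om op B))

/-- UW, set form -/
def StmtUWB : Prop :=
  ∀ (V E : Type) [Fintype V] [DecidableEq V] [Fintype E] [DecidableEq E] (s t : E → V)
    (J : E → ℝ) (om op : V) (B : Finset V), (∀ e, 0 < J e) →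
    Joined s t om op ∅ → Joined s t om op B →
    ZM s t (fun e => wI (J e)) om op B * ZS s t (fun e => wI (J e)) om op B 1 ≤
      ZS s t (fun e => wI (J e)) om op ∅ 1 * ZS s t (fun e => wI (J e)) om op B 0

/-- assembly of the set form -/
theorem uwB_of (h2 : StmtUW2B) (h3 : StmtUW3B) : StmtUWB := by
  intro V E _ _ _ _ s t J om op B hJ hJ1 hJ2
  obtain ⟨hS, hP⟩ := h3 V E s t J om op (fun e => (hJ e).le) hJ1
  have hL := (hP B).mul (hS B hJ2 1)
  have hR := (hS ∅ hJ1 1).mul (hS B hJ2 0)
  refine le_of_tendsto_of_tendsto hL hR ?_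
  obtain ⟨N, hN⟩ := exists_nat_ge (∑ e, J e)
  filter_upwards [eventually_ge_atTop (max N 1)] with m hm
  refine h2 V E s t J om op B hJ hJ1 hJ2 m (by omega) fun e => ?_
  have h4 : J e ≤ ∑ e, J e :=
    Finset.single_le_sum (fun e _ => (hJ e).le) (Finset.mem_univ e)
  have h5 : (N : ℝ) ≤ m := by exact_mod_cast (le_max_left N 1).trans hm
  linarith

end Vale.Agent.P159.T1.H254
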