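import Vale.Agent.P159.T1.H254.UW1e
import Vale.Agent.P159.T1.H254.UWDefsC

/-!
UW1, set form, first part: the clusters of the vertices of a set `B`.
-/

open Finset

namespace Vale.Agent.P159.T1.H254

section clusB

set_option linter.unusedSectionVars false

variable {V E : Type} [Fintype V] [DecidableEq V] [Fintype E] [DecidableEq E]

/-- the union of the clusters of the vertices of `B` -/
noncomputable def clusB (s t : E → V) (B : Finset V) (ω : E → Bool) : Finset V :=
  B.biUnion fun f => clus s t f ω

variable {s t : E → V} {B : Finset V} {om op : V} {ω ω' : E → Bool}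

lemma mem_clusB {v : V} : v ∈ clusB s t B ω ↔ ∃ f ∈ B, v ∈ clus s t f ω := by
  simp [clusB]

lemma sub_clusB : B ⊆ clusB s t B ω := fun v hv => mem_clusB.mpr ⟨v, hv, f_mem_clus⟩

lemma clusB_edge {e : E} (h : ω e = true) : s e ∈ clusB s t B ω ↔ t e ∈ clusB s t B ω := by
  rw [mem_clusB, mem_clusB]
  constructor
  · rintro ⟨f, hf, h1⟩
    exact ⟨f, hf, (clus_edge h).mp h1⟩
  · rintro ⟨f, hf, h1⟩
    exact ⟨f, hf, (clus_edge h).mpr h1⟩

lemma clusB_congr {U : Finset V} (h : ∀ e ∈ touch s t U, ω e = ω' e)
    (hc : clusB s t B ω = U) : clusB s t B ω' = U := by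
  ext v
  constructor
  · intro hv
    obtain ⟨f, hf, hv'⟩ := mem_clusB.mp hv
    clear hv
    rw [mem_clus] at hv'
    induction hv' with
    | refl => rw [← hc]; exact sub_clusB hf
    | tail _ h2 ih =>
      obtain ⟨e, he, h3 | h3⟩ := h2
      · have h4 : e ∈ touch s t U := mem_touch.mpr (Or.inl (h3.1 ▸ ih))
        have h5 : ω e = true := (h e h4).trans he
        rw [← h3.2, ← hc]
        rw [← clusB_edge h5, hc, h3.1]
        exact ih
      · have h4 : e ∈ touch s t U := mem_touch.mpr (Or.inr (h3.2 ▸ ih))
        have h5 : ω e = true := (h e h4).trans he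
        rw [← h3.1, ← hc]
        rw [clusB_edge h5, hc, h3.2]
        exact ih
  · intro hv
    rw [← hc] at hv
    obtain ⟨f, hf, hv'⟩ := mem_clusB.mp hv
    clear hv
    rw [mem_clus] at hv'
    rw [mem_clusB]
    refine ⟨f, hf, ?_⟩
    rw [mem_clus]
    induction hv' with
    | refl => exact .refl
    | tail h1 h2 ih =>
      refine ih.tail ?_
      have h6 : _ ∈ U := hc ▸ mem_clusB.mpr ⟨f, hf, mem_clus.mpr h1⟩
      obtain ⟨e, he, h3⟩ := h2
      have h4 : e ∈ touch s t U := by
        rw [mem_touch]
        rcases h3 with h3 | h3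
        · left; rw [h3.1]; exact h6
        · right; rw [h3.2]; exact h6
      exact ⟨e, (h e h4).symm.trans he, h3⟩

/-- the sign functions of the inner part -/
def NU (s t : E → V) (U : Finset V) (ω : E → Bool) : Finset (V → Bool) :=
  univ.filter fun σ => (∀ v, v ∉ U → σ v = false) ∧
    ∀ e ∈ touch s t U, ω e = true → σ (s e) = σ (t e)

lemma NU_congr {U : Finset V} (h : ∀ e ∈ touch s t U, ω e = ω' e) :
    NU s t U ω = NU s t U ω' := by
  ext σ
  simp only [NU, mem_filter, mem_univ, true_and]
  refine and_congr_right fun _ => ?_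
  refine forall₂_congr fun e he => ?_
  rw [h e he]

/-- `σ` on `U` from `τ`, elsewhere from `σ` -/
def mix (U : Finset V) (τ σ : V → Bool) : V → Bool := fun v => if v ∈ U then τ v else σ v

lemma cons_mix {U : Finset V} (hc : clusB s t B ω = U) (h1 : om ∉ U) (h2 : op ∉ U) {j : Bool}
    {σ τ : V → Bool} (h : cons s t om op ∅ (cl s t U ω) j σ) (hτ : τ ∈ NU s t U ω) :
    cons s t om op ∅ ω j (mix U τ σ) := by
  simp only [NU, mem_filter, mem_univ, true_and] at hτ
  refine ⟨fun e _ he => ?_, ?_, ?_⟩
  · have h3 := clusB_edge (B := B) (s := s) (t := t) he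
    rw [hc] at h3
    unfold mix
    by_cases h4 : s e ∈ U
    · rw [if_pos h4, if_pos (h3.mp h4)]
      exact hτ.2 e (mem_touch.mpr (Or.inl h4)) he
    · rw [if_neg h4, if_neg (fun h5 => h4 (h3.mpr h5))]
      refine h.1 e (notMem_empty e) ?_
      unfold cl
      rw [if_neg, he]
      rw [mem_touch]
      rintro (h5 | h5)
      · exact h4 h5
      · exact h4 (h3.mpr h5)
  · unfold mix; rw [if_neg h1]; exact h.2.1
  · unfold mix; rw [if_neg h2]; exact h.2.2

lemma false_mem_NU {U : Finset V} : (fun _ => false) ∈ NU s t U ω := by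
  simp [NU]

lemma dis_clB {U : Finset V} (hc : clusB s t B ω = U) (h1 : om ∉ U) (h2 : op ∉ U) :
    dis s t om op ∅ (cl s t U ω) ↔ dis s t om op ∅ ω := by
  constructor
  · rintro ⟨σ, hσ⟩
    exact ⟨_, cons_mix hc h1 h2 hσ false_mem_NU⟩
  · exact dis_anti (cl_le U)

lemma card_SF_clusB {U : Finset V} (hc : clusB s t B ω = U) (h1 : om ∉ U) (h2 : op ∉ U)
    (j : Bool) : 2 ^ U.card * (SF s t om op ∅ ω j).card =
      (NU s t U ω).card * (SF s t om op ∅ (cl s t U ω) j).card := by
  set R := (SF s t om op ∅ (cl s t U ω) j).filter fun σ => ∀ v ∈ U, σ v = false with hR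
  have e1 : (SF s t om op ∅ ω j).card = (R ×ˢ NU s t U ω).card := by
    refine card_nbij' (fun σ => (mix U (fun _ => false) σ, mix U σ fun _ => false))
      (fun p => mix U p.2 p.1) ?_ ?_ ?_ ?_
    · intro σ hσ
      have hσ' : cons s t om op ∅ ω j σ := by simpa [mem_SF] using hσ
      simp only [coe_product, Set.mem_prod, mem_coe, hR, mem_filter, mem_SF]
      refine ⟨⟨⟨fun e _ he => ?_, ?_, ?_⟩, fun v hv => by unfold mix; rw [if_pos hv]⟩, ?_⟩
      · by_cases h3 : e ∈ touch s t U
        · unfold cl at he
          rw [if_pos h3] at he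
          simp at he
        · unfold cl at he
          rw [if_neg h3] at he
          rw [mem_touch, not_or] at h3
          unfold mix
          rw [if_neg h3.1, if_neg h3.2]
          exact hσ'.1 e (notMem_empty e) he
      · unfold mix; rw [if_neg h1]; exact hσ'.2.1
      · unfold mix; rw [if_neg h2]; exact hσ'.2.2
      · simp only [NU, mem_filter, mem_univ, true_and]
        refine ⟨fun v hv => by unfold mix; rw [if_neg hv], fun e he ho => ?_⟩
        have h3 := clusB_edge (B := B) (s := s) (t := t) ho
        rw [hc] at h3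
        rw [mem_touch] at he
        have h4 : s e ∈ U := he.elim id h3.mpr
        unfold mix
        rw [if_pos h4, if_pos (h3.mp h4)]
        exact hσ'.1 e (notMem_empty e) ho
    · rintro ⟨σ, τ⟩ hp
      simp only [coe_product, Set.mem_prod, mem_coe, hR, mem_filter, mem_SF] at hp
      simp only [mem_coe, mem_SF]
      exact cons_mix hc h1 h2 hp.1.1 hp.2
    · intro σ hσ
      funext v
      simp only [mix]
      split_ifs <;> rfl
    · rintro ⟨σ, τ⟩ hp
      simp only [coe_product, Set.mem_prod, mem_coe, hR, mem_filter, mem_SF, NU, mem_univ,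
        true_and] at hp
      simp only [Prod.mk.injEq]
      constructor
      · funext v
        simp only [mix]
        split_ifs with h3
        · exact (hp.1.2 v h3).symm
        · rfl
      · funext v
        simp only [mix]
        split_ifs with h3
        · rfl
        · exact (hp.2.1 v h3).symm
  have e2 : (SF s t om op ∅ (cl s t U ω) j).card = (R ×ˢ U.powerset).card := by
    refine card_nbij' (fun σ => (mix U (fun _ => false) σ, U.filter fun v => σ v = true))
      (fun p => fun v => if v ∈ U then decide (v ∈ p.2) else p.1 v) ?_ ?_ ?_ ?_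
    · intro σ hσ
      have hσ' : cons s t om op ∅ (cl s t U ω) j σ := by simpa [mem_SF] using hσ
      simp only [coe_product, Set.mem_prod, mem_coe, hR, mem_filter, mem_SF, mem_powerset]
      refine ⟨⟨⟨fun e _ he => ?_, ?_, ?_⟩, fun v hv => by unfold mix; rw [if_pos hv]⟩,
        filter_subset _ _⟩
      · by_cases h3 : e ∈ touch s t U
        · unfold cl at he
          rw [if_pos h3] at he
          simp at he
        · have h4 := hσ'.1 e (notMem_empty e) he
          rw [mem_touch, not_or] at h3
          unfold mix
          rw [if_neg h3.1, if_neg h3.2]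
          exact h4
      · unfold mix; rw [if_neg h1]; exact hσ'.2.1
      · unfold mix; rw [if_neg h2]; exact hσ'.2.2
    · rintro ⟨τ, C⟩ hp
      simp only [coe_product, Set.mem_prod, mem_coe, hR, mem_filter, mem_SF, mem_powerset] at hp
      simp only [mem_coe, mem_SF]
      refine ⟨fun e _ he => ?_, ?_, ?_⟩
      · by_cases h3 : e ∈ touch s t U
        · unfold cl at he
          rw [if_pos h3] at he
          simp at he
        · have h4 := hp.1.1.1 e (notMem_empty e) he
          rw [mem_touch, not_or] at h3
          beta_reduce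
          rw [if_neg h3.1, if_neg h3.2]
          exact h4
      · beta_reduce; rw [if_neg h1]; exact hp.1.1.2.1
      · beta_reduce; rw [if_neg h2]; exact hp.1.1.2.2
    · intro σ hσ
      funext v
      simp only [mix]
      by_cases h3 : v ∈ U
      · simp [h3]
      · simp [h3]
    · rintro ⟨τ, C⟩ hp
      simp only [coe_product, Set.mem_prod, mem_coe, hR, mem_filter, mem_SF, mem_powerset] at hp
      simp only [Prod.mk.injEq]
      constructor
      · funext v
        simp only [mix]
        split_ifs with h3
        · exact (hp.1.2 v h3).symm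
        · rfl
      · ext v
        simp only [mem_filter]
        constructor
        · rintro ⟨h3, h4⟩
          rw [if_pos h3] at h4
          simpa using h4
        · intro h3
          refine ⟨hp.2 h3, ?_⟩
          rw [if_pos (hp.2 h3)]
          simpa using h3
  rw [e1, e2, card_product, card_product, card_powerset]
  ring

end clusB

end Vale.Agent.P159.T1.H254
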