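import Vale.Agent.P159.T1.H254.UW1g

/-!
UW1, set form, second part: `uw1B : StmtUW1B`.
-/

open Finset

namespace Vale.Agent.P159.T1.H254

section setB

set_option linter.unusedSectionVars false

variable {V E : Type} [Fintype V] [DecidableEq V] [Fintype E] [DecidableEq E]

/-- inner weight -/
noncomputable def g1B (s t : E → V) {M : ℕ} (hM : 0 < M) (β : E → ℝ) (B : Finset V) (U : Finset V)
    (x : Xc V E M) : ℝ :=
  if clusB s t B x.2 = U then ((NU s t U x.2).card : ℝ) *
    ∏ e ∈ touch s t U, phi (β e) ((glue s t U x (z0 hM)).1 (s e))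
    ((glue s t U x (z0 hM)).1 (t e)) (x.2 e) else 0

lemma clusB_glue {s t : E → V} {M : ℕ} {B : Finset V} {U : Finset V} {x y : Xc V E M} :
    clusB s t B (glue s t U x y).2 = U ↔ clusB s t B x.2 = U := by
  constructor
  · exact clusB_congr fun e he => by simp only [glue, if_pos he]
  · exact clusB_congr fun e he => by simp only [glue, if_pos he]

/-- the weight given the cluster -/
lemma keyB {s t : E → V} {M : ℕ} (hM : 0 < M) (β : E → ℝ) {om op : V} {B U : Finset V}
    (h1 : om ∉ U) (h2 : op ∉ U) (F : Finset E) (hF : F ⊆ touch s t U) (x y : Xc V E M) :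
    (∏ e ∈ touch s t U, if e ∈ F then 1 else β e) * 2 ^ U.card *
      (if clusB s t B (glue s t U x y).2 = U then mu s t M β om op ∅ (glue s t U x y) else 0) =
    1 * (g1B s t hM β B U x * ((if ∀ e ∈ touch s t U, Ae s t U y e then 1 else 0) *
      mu s t M β om op F (glue s t U (z0 hM) y))) := by
  by_cases hc : clusB s t B (glue s t U x y).2 = U
  · have hc' := clusB_glue.mp hc
    rw [if_pos hc]
    unfold g1B
    rw [if_pos hc']
    have hcard : (2 : ℝ) ^ U.card * ((SF s t om op ∅ (glue s t U x y).2 false).card : ℝ) =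
        ((NU s t U x.2).card : ℝ) *
          ((SF s t om op F (glue s t U (z0 hM) y).2 false).card : ℝ) := by
      have hNU : NU s t U (glue s t U x y).2 = NU s t U x.2 :=
        NU_congr fun e he => by simp only [glue, if_pos he]
      rw [glue_cl hM U x y, SF_cl_eq hF, ← hNU]
      exact_mod_cast card_SF_clusB hc h1 h2 false
    have hbc : (((glue s t U x y).1 om : ℕ) = 0 ∧ ((glue s t U x y).1 op : ℕ) = 0) ↔
        (((glue s t U (z0 hM) y).1 om : ℕ) = 0 ∧ ((glue s t U (z0 hM) y).1 op : ℕ) = 0) := by
      simp only [glue, if_neg h1, if_neg h2]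
    have hout : (∏ e ∈ (touch s t U)ᶜ, if e ∈ (∅ : Finset E) then (1 : ℝ) else
        phi (β e) ((glue s t U x y).1 (s e)) ((glue s t U x y).1 (t e)) ((glue s t U x y).2 e)) =
        ∏ e ∈ (touch s t U)ᶜ, if e ∈ F then (1 : ℝ) else
        phi (β e) ((glue s t U (z0 hM) y).1 (s e)) ((glue s t U (z0 hM) y).1 (t e))
          ((glue s t U (z0 hM) y).2 e) := by
      refine prod_congr rfl fun e he => ?_
      have he' : e ∉ touch s t U := by simpa using he
      have he2 : e ∉ F := fun h => he' (hF h)
      rw [if_neg (notMem_empty e), if_neg he2]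
      have he3 := he'
      rw [mem_touch, not_or] at he3
      simp only [glue, if_neg he3.1, if_neg he3.2, if_neg he']
    have hin : (∏ e ∈ touch s t U, if e ∈ F then 1 else β e) *
        (∏ e ∈ touch s t U, if e ∈ (∅ : Finset E) then (1 : ℝ) else
        phi (β e) ((glue s t U x y).1 (s e)) ((glue s t U x y).1 (t e)) ((glue s t U x y).2 e)) =
        (∏ e ∈ touch s t U, phi (β e) ((glue s t U x (z0 hM)).1 (s e))
          ((glue s t U x (z0 hM)).1 (t e)) (x.2 e)) *
        ((if ∀ e ∈ touch s t U, Ae s t U y e then 1 else 0) *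
        ∏ e ∈ touch s t U, if e ∈ F then (1 : ℝ) else
        phi (β e) ((glue s t U (z0 hM) y).1 (s e)) ((glue s t U (z0 hM) y).1 (t e))
          ((glue s t U (z0 hM) y).2 e)) := by
      have hA : (if ∀ e ∈ touch s t U, Ae s t U y e then (1 : ℝ) else 0) =
          ∏ e ∈ touch s t U, if Ae s t U y e then 1 else 0 := by
        rw [prod_ite_zero]
        simp
      rw [hA, ← prod_mul_distrib, ← prod_mul_distrib, ← prod_mul_distrib]
      refine prod_congr rfl fun e he => ?_
      rw [if_neg (notMem_empty e)]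
      have hω : (glue s t U x y).2 e = x.2 e := by simp only [glue, if_pos he]
      have hω0 : (glue s t U (z0 hM) y).2 e = false := by simp only [glue, if_pos he, z0]
      rw [hω, hω0]
      by_cases hs : s e ∈ U
      · by_cases ht : t e ∈ U
        · have hA1 : Ae s t U y e := ⟨Or.inl hs, Or.inl ht⟩
          rw [if_pos hA1]
          simp only [glue, if_pos hs, if_pos ht, z0]
          exact edge0 _ _ _
        · have hx : x.2 e = false := by
            by_contra h3
            have h3' : x.2 e = true := by simpa using h3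
            have := clusB_edge (B := B) (s := s) (t := t) h3'
            rw [hc'] at this
            exact ht (this.mp hs)
          rw [hx]
          have hA1 : Ae s t U y e ↔ (y.1 (t e) : ℕ) = 0 := by
            simp [Ae, hs, ht]
          rw [if_congr hA1 rfl rfl]
          simp only [glue, if_pos hs, if_neg ht, z0]
          exact edge1 _ _ _ _
      · have ht : t e ∈ U := by
          rw [mem_touch] at he
          exact he.resolve_left hs
        have hx : x.2 e = false := by
          by_contra h3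
          have h3' : x.2 e = true := by simpa using h3
          have := clusB_edge (B := B) (s := s) (t := t) h3'
          rw [hc'] at this
          exact hs (this.mpr ht)
        rw [hx]
        have hA1 : Ae s t U y e ↔ (y.1 (s e) : ℕ) = 0 := by
          simp [Ae, hs, ht]
        rw [if_congr hA1 rfl rfl]
        simp only [glue, if_neg hs, if_pos ht, z0]
        exact edge2 _ _ _ _
    unfold mu
    rw [← prod_mul_prod_compl (touch s t U), ← prod_mul_prod_compl (touch s t U) (fun e =>
      if e ∈ F then (1 : ℝ) else _), hout]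
    have hbc' : (if ((glue s t U x y).1 om : ℕ) = 0 ∧ ((glue s t U x y).1 op : ℕ) = 0 then
        (1 : ℝ) else 0) = if ((glue s t U (z0 hM) y).1 om : ℕ) = 0 ∧
          ((glue s t U (z0 hM) y).1 op : ℕ) = 0 then 1 else 0 := if_congr hbc rfl rfl
    rw [hbc']
    linear_combination
      (((NU s t U x.2).card : ℝ) * ((if ((glue s t U (z0 hM) y).1 om : ℕ) = 0 ∧
          ((glue s t U (z0 hM) y).1 op : ℕ) = 0 then (1 : ℝ) else 0) *
        ((SF s t om op F (glue s t U (z0 hM) y).2 false).card : ℝ) *
        ∏ e ∈ (touch s t U)ᶜ, if e ∈ F then (1 : ℝ) else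
        phi (β e) ((glue s t U (z0 hM) y).1 (s e)) ((glue s t U (z0 hM) y).1 (t e))
          ((glue s t U (z0 hM) y).2 e))) * hin +
      ((∏ e ∈ touch s t U, if e ∈ F then 1 else β e) *
        (∏ e ∈ touch s t U, if e ∈ (∅ : Finset E) then (1 : ℝ) else
        phi (β e) ((glue s t U x y).1 (s e)) ((glue s t U x y).1 (t e)) ((glue s t U x y).2 e)) *
        (if ((glue s t U (z0 hM) y).1 om : ℕ) = 0 ∧
          ((glue s t U (z0 hM) y).1 op : ℕ) = 0 then (1 : ℝ) else 0) *
        ∏ e ∈ (touch s t U)ᶜ, if e ∈ F then (1 : ℝ) else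
        phi (β e) ((glue s t U (z0 hM) y).1 (s e)) ((glue s t U (z0 hM) y).1 (t e))
          ((glue s t U (z0 hM) y).2 e)) * hcard
  · rw [if_neg hc, mul_zero]
    unfold g1B
    rw [if_neg (fun h => hc (clusB_glue.mpr h))]
    ring

lemma P_eqB {s t : E → V} {M : ℕ} (hM : 0 < M) (β : E → ℝ) {om op : V} {B U : Finset V}
    (h1 : om ∉ U) (h2 : op ∉ U) (F : Finset E) (hF : F ⊆ touch s t U) (T T' : (E → Bool) → ℝ)
    (hT : ∀ ω, clusB s t B ω = U → T ω = T' (cl s t U ω)) :
    (Fintype.card (Xc V E M) : ℝ) * ((∏ e ∈ touch s t U, if e ∈ F then 1 else β e) *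
      2 ^ U.card * ∑ z : Xc V E M, if clusB s t B z.2 = U then
        mu s t M β om op ∅ z * T z.2 else 0) =
    1 * (∑ x : Xc V E M, g1B s t hM β B U x) * outS s t hM β om op U F T' := by
  have e1 := glue_card s t U (fun z : Xc V E M => if clusB s t B z.2 = U then
        mu s t M β om op ∅ z * T z.2 else 0)
  calc _ = (∏ e ∈ touch s t U, if e ∈ F then 1 else β e) * 2 ^ U.card *
      ((Fintype.card (Xc V E M) : ℝ) * ∑ z : Xc V E M, if clusB s t B z.2 = U then
        mu s t M β om op ∅ z * T z.2 else 0) := by ring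
    _ = _ := by
      rw [e1]
      unfold outS
      rw [mul_assoc 1, sum_mul_sum, mul_sum, mul_sum]
      refine sum_congr rfl fun x _ => ?_
      rw [mul_sum, mul_sum]
      refine sum_congr rfl fun y _ => ?_
      have e2 := keyB hM β h1 h2 F hF x y (B := B)
      by_cases hc : clusB s t B (glue s t U x y).2 = U
      · rw [if_pos hc] at e2 ⊢
        rw [hT _ hc, ← glue_cl hM]
        linear_combination (T' (glue s t U (z0 hM) y).2) * e2
      · rw [if_neg hc]
        have e3 : g1B s t hM β B U x = 0 := by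
          unfold g1B
          rw [if_neg (fun h => hc (clusB_glue.mpr h))]
        rw [e3]
        ring

/-- given the clusters `U` of `B`, the disconnection has at least the probability which it has
without `B` -/
lemma cond_leB {s t : E → V} {M : ℕ} (hM : 0 < M) {β : E → ℝ} (hβ : ∀ e, 0 < β e ∧ β e ≤ 1 / 2)
    {om op : V} {B U : Finset V} (h1 : om ∉ U) (h2 : op ∉ U) (hf : B ⊆ U) :
    (∑ z : Xc V E M, if clusB s t B z.2 = U then mu s t M β om op ∅ z else 0) *
      ZF s t M β om op (touch s t B) true ≤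
    (∑ z : Xc V E M, if clusB s t B z.2 = U then mu s t M β om op ∅ z *
      (if dis s t om op ∅ z.2 then 1 else 0) else 0) *
      ZF s t M β om op (touch s t B) false := by
  set F := touch s t B with hFdef
  have hF : F ⊆ touch s t U := by
    intro e he
    rw [hFdef, mem_touch] at he
    rw [mem_touch]
    exact he.imp (fun h => hf h) (fun h => hf h)
  have hβ' : ∀ e, 0 ≤ β e ∧ β e ≤ 1 / 2 := fun e => ⟨(hβ e).1.le, (hβ e).2⟩
  have e1 := P_eqB hM β (B := B) h1 h2 F hF (fun _ => 1) (fun _ => 1) (fun _ _ => rfl)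
  have e2 := P_eqB hM β (B := B) h1 h2 F hF (fun ω => if dis s t om op ∅ ω then 1 else 0)
    (fun ω => if dis s t om op F ω then 1 else 0) (fun ω hc => by
      rw [if_congr ((dis_cl_iff hF).trans (dis_clB hc h1 h2)) rfl rfl])
  have e3 := Q_eq (s := s) (t := t) hM β (om := om) (op := op) (U := U) F (fun _ => 1)
  have e4 := Q_eq (s := s) (t := t) hM β (om := om) (op := op) (U := U) F
    (fun ω => if dis s t om op F ω then 1 else 0)
  have e5 := fkg_anti (s := s) (t := t) hβ' om op F
    (f := fun z : Xc V E M => (if Dp s t U z then (1 : ℝ) else 0))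
    (g := fun z : Xc V E M => (if dis s t om op F z.2 then (1 : ℝ) else 0))
    (fun z => by simp only [Pi.zero_apply]; split_ifs <;> norm_num)
    (fun z => by simp only [Pi.zero_apply]; split_ifs <;> norm_num)
    (Dp_anti s t U) (dis_antitone s t om op F)
  rw [sum_mu_dis, sum_mu] at e5
  simp only [mul_one] at e1 e3
  set X : ℝ := (Fintype.card (Xc V E M) : ℝ) with hX
  set c : ℝ := (∏ e ∈ touch s t U, if e ∈ F then 1 else β e) * 2 ^ U.card with hc
  set G : ℝ := ∑ x : Xc V E M, g1B s t hM β B U x with hG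
  set N : ℝ := ∑ x : Xc V E M, if Inz s t U x then (1 : ℝ) else 0 with hN
  set S1 := outS s t hM β om op U F (fun _ => 1) with hS1
  set S2 := outS s t hM β om op U F (fun ω => if dis s t om op F ω then 1 else 0) with hS2
  have hXpos : 0 < X := by
    have : Nonempty (Xc V E M) := ⟨z0 hM⟩
    rw [hX]
    exact_mod_cast Fintype.card_pos
  have hcpos : 0 < c := by
    refine mul_pos (prod_pos fun e _ => ?_) (by positivity)
    split_ifs
    · exact one_pos
    · exact (hβ e).1
  have hNpos : 0 < N := by
    refine sum_pos' (fun x _ => by split_ifs <;> norm_num) ⟨z0 hM, mem_univ _, ?_⟩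
    rw [if_pos]
    · exact one_pos
    · exact ⟨fun v _ => rfl, fun e _ => rfl⟩
  have hGnn : 0 ≤ G := by
    refine sum_nonneg fun x _ => ?_
    unfold g1B
    split_ifs
    · exact mul_nonneg (Nat.cast_nonneg _)
        (prod_nonneg fun e _ => phi_nonneg (hβ' e).1 (hβ' e).2 _ _ _)
    · exact le_rfl
  have hpow : (0 : ℝ) < 2 ^ F.card := by positivity
  -- the correlation inequality in terms of `S1`, `S2`
  have e6 : N * S1 * ZF s t M β om op F true ≤ N * S2 * ZF s t M β om op F false := by
    rw [← e3, ← e4]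
    have e7 := mul_le_mul_of_nonneg_left e5 hXpos.le
    have e8 : (2 : ℝ) ^ F.card * ((X * ∑ z : Xc V E M, mu s t M β om op F z *
        if Dp s t U z then 1 else 0) * ZF s t M β om op F true) ≤
        (2 : ℝ) ^ F.card * ((X * ∑ z : Xc V E M, mu s t M β om op F z *
        ((if Dp s t U z then 1 else 0) * if dis s t om op F z.2 then 1 else 0)) *
        ZF s t M β om op F false) := by
      calc _ = X * ((∑ z : Xc V E M, mu s t M β om op F z *
          if Dp s t U z then 1 else 0) * (2 ^ F.card * ZF s t M β om op F true)) := by ring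
        _ ≤ _ := e7
        _ = _ := by ring
    exact le_of_mul_le_mul_left e8 hpow
  have e9 : S1 * ZF s t M β om op F true ≤ S2 * ZF s t M β om op F false := by
    refine le_of_mul_le_mul_left ?_ hNpos
    calc _ = N * S1 * ZF s t M β om op F true := by ring
      _ ≤ _ := e6
      _ = _ := by ring
  have hXc : 0 < X * c := mul_pos hXpos hcpos
  refine le_of_mul_le_mul_left ?_ hXc
  calc _ = (X * (c * ∑ z : Xc V E M, if clusB s t B z.2 = U then mu s t M β om op ∅ z else 0)) *
        ZF s t M β om op F true := by ring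
    _ = G * (S1 * ZF s t M β om op F true) := by rw [e1]; ring
    _ ≤ G * (S2 * ZF s t M β om op F false) :=
        mul_le_mul_of_nonneg_left e9 hGnn
    _ = (X * (c * ∑ z : Xc V E M, if clusB s t B z.2 = U then mu s t M β om op ∅ z *
        (if dis s t om op ∅ z.2 then 1 else 0) else 0)) * ZF s t M β om op F false := by
        rw [e2]; ring
    _ = _ := by ring

/-- the sum over the clusters which avoid `om` and `op` -/
lemma sum_clusB {s t : E → V} {M : ℕ} {om op : V} {B : Finset V} (h : Xc V E M → ℝ) :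
    ∑ U ∈ (univ : Finset (Finset V)).filter (fun U => om ∉ U ∧ op ∉ U ∧ B ⊆ U),
      (∑ z : Xc V E M, if clusB s t B z.2 = U then h z else 0) =
    ∑ z : Xc V E M, if om ∉ clusB s t B z.2 ∧ op ∉ clusB s t B z.2 then h z else 0 := by
  rw [sum_comm]
  refine sum_congr rfl fun z _ => ?_
  rw [sum_ite_eq]
  refine if_congr ?_ rfl rfl
  simp only [mem_filter, mem_univ, true_and]
  exact ⟨fun h => ⟨h.1, h.2.1⟩, fun h => ⟨h.1, h.2, sub_clusB⟩⟩


/-- the signs of a height function which misses `B` -/
lemma card_missB {s t : E → V} {M : ℕ} (a : V → Fin M) {om op : V} {B : Finset V}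
    (ω : E → Bool) [DecidablePred fun σ : V → Bool => (σ om = false ∧ σ op = false ∧
      Miss s t om op B fun v => hgt (a v) (σ v))] :
    (univ.filter fun σ : V → Bool =>
        (∀ e, e ∉ (∅ : Finset E) → ω e = true → σ (s e) = σ (t e)) ∧
          (σ om = false ∧ σ op = false ∧ Miss s t om op B fun v => hgt (a v) (σ v))).card ≤
      if om ∉ clusB s t B ω ∧ op ∉ clusB s t B ω then (SF s t om op ∅ ω false).card else 0 := by
  split_ifs with hc
  · refine card_le_card fun σ hσ => ?_
    simp only [mem_filter, mem_univ, true_and] at hσ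
    rw [mem_SF]
    exact ⟨hσ.1, hσ.2.1, hσ.2.2.1⟩
  · rw [Nat.le_zero, card_eq_zero, eq_empty_iff_forall_notMem]
    intro σ hσ
    simp only [mem_filter, mem_univ, true_and] at hσ
    obtain ⟨h1, h2, h3, h4⟩ := hσ
    have hcons : cons s t om op ∅ ω false σ := ⟨h1, h2, h3⟩
    -- a path of open edges which starts with the sign `false` stays in `{h ≤ 0}`
    have hpath : ∀ f v, σ f = false → Relation.ReflTransGen (stp s t ω) f v →
        Relation.ReflTransGen (lowA s t fun v => hgt (a v) (σ v)) v f := by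
      intro f v hf hv
      have hlow : ∀ x, σ x = false → hgt (a x) (σ x) ≤ 0 := fun x hx => by
        rw [hx]; simp [hgt]
      induction hv with
      | refl => exact .refl
      | tail h5 h6 ih =>
        have h7 : σ _ = σ f := cons_clus hcons (mem_clus.mpr h5)
        have h8 : σ _ = σ f := cons_clus hcons (mem_clus.mpr (h5.tail h6))
        refine Relation.ReflTransGen.head ?_ ih
        obtain ⟨e, _, h9⟩ := h6
        exact ⟨hlow _ (h8.trans hf), hlow _ (h7.trans hf), e, h9.symm⟩
    rw [not_and_or, not_not, not_not] at hc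
    rcases hc with hc | hc
    · obtain ⟨f, hf, h5⟩ := mem_clusB.mp hc
      have h6 : σ f = false := (cons_clus hcons h5).symm.trans h2
      exact (h4 f hf).1 (hpath f om h6 (mem_clus.mp h5))
    · obtain ⟨f, hf, h5⟩ := mem_clusB.mp hc
      have h6 : σ f = false := (cons_clus hcons h5).symm.trans h3
      exact (h4 f hf).2 (hpath f op h6 (mem_clus.mp h5))

lemma ZFM_le {s t : E → V} {M : ℕ} {β : E → ℝ} (hβ : ∀ e, 0 ≤ β e ∧ β e ≤ 1 / 2) {om op : V}
    {B : Finset V} :
    ZFM s t M β om op B ≤ ∑ z : Xc V E M, if om ∉ clusB s t B z.2 ∧ op ∉ clusB s t B z.2 then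
      mu s t M β om op ∅ z else 0 := by
  classical
  unfold ZFM mu
  rw [Fintype.sum_prod_type]
  refine sum_le_sum fun a _ => ?_
  have h := es s t β ∅ a (fun σ => σ om = false ∧ σ op = false ∧
    Miss s t om op B fun v => hgt (a v) (σ v))
  rw [card_empty, pow_zero, one_mul] at h
  by_cases h0 : (a om : ℕ) = 0 ∧ (a op : ℕ) = 0
  · have e1 : (∑ σ : V → Bool, if (a om : ℕ) = 0 ∧ (a op : ℕ) = 0 ∧ σ om = false ∧
        σ op = false ∧ Miss s t om op B (fun v => hgt (a v) (σ v)) then
        ∏ e, ker 1 (β e) (hgt (a (t e)) (σ (t e)) - hgt (a (s e)) (σ (s e))) else 0) =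
        ∑ σ : V → Bool, if σ om = false ∧ σ op = false ∧
          Miss s t om op B (fun v => hgt (a v) (σ v)) then
      ∏ e ∈ (∅ : Finset E)ᶜ, ker 1 (β e) (hgt (a (t e)) (σ (t e)) -
        hgt (a (s e)) (σ (s e))) else 0 := by
      refine sum_congr rfl fun σ _ => ?_
      rw [compl_empty]
      refine if_congr ?_ rfl rfl
      simp [h0.1, h0.2]
    rw [e1, ← h]
    refine sum_le_sum fun ω _ => ?_
    have e2 := card_missB (s := s) (t := t) a (om := om) (op := op) (B := B) ω
    have hp : (0 : ℝ) ≤ ∏ e, if e ∈ (∅ : Finset E) then (1 : ℝ) else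
          phi (β e) (a (s e)) (a (t e)) (ω e) := prod_nonneg fun e _ => by
      split_ifs
      · exact zero_le_one
      · exact phi_nonneg (hβ e).1 (hβ e).2 _ _ _
    refine (mul_le_mul_of_nonneg_left (Nat.cast_le.mpr e2) hp).trans ?_
    rw [if_pos h0]
    split_ifs
    · rw [mul_one]
    · simp
  · have e1 : ∀ ω : E → Bool, (if om ∉ clusB s t B ω ∧ op ∉ clusB s t B ω then
      (∏ e, if e ∈ (∅ : Finset E) then (1 : ℝ) else phi (β e) (a (s e)) (a (t e)) (ω e)) *
        (if (a om : ℕ) = 0 ∧ (a op : ℕ) = 0 then 1 else 0) *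
        ((SF s t om op ∅ ω false).card : ℝ) else 0) = 0 := fun ω => by
      rw [if_neg h0]
      split_ifs
      · ring
      · rfl
    simp only [e1, sum_const_zero]
    refine (sum_eq_zero fun σ _ => ?_).le
    rw [if_neg (fun h => h0 ⟨h.1, h.2.1⟩)]

end setB

/-- UW1, set form -/
theorem uw1B : StmtUW1B := by
  intro V E _ _ _ _ s t M β om op B hM hβ h1 h2
  have hβ' : ∀ e, 0 ≤ β e ∧ β e ≤ 1 / 2 := fun e => ⟨(hβ e).1.le, (hβ e).2⟩
  have hZ := (ZF_pos s t hM β hβ' om op (touch s t B)).le
  have hZ1 : 0 ≤ ZF s t M β om op (touch s t B) true := by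
    have e3 := sum_mu_dis s t (M := M) β om op (touch s t B)
    have e4 : 0 ≤ ∑ x : (V → Fin M) × (E → Bool), mu s t M β om op (touch s t B) x *
        (if dis s t om op (touch s t B) x.2 then 1 else 0) :=
      sum_nonneg fun x _ => mul_nonneg (mu_nonneg hβ' _ _ _ _) (by split_ifs <;> norm_num)
    rw [e3] at e4
    exact nonneg_of_mul_nonneg_right e4 (by positivity)
  refine (mul_le_mul_of_nonneg_right (ZFM_le hβ') hZ1).trans ?_
  rw [← sum_clusB, sum_mul]
  have e2 : ∑ U ∈ (univ : Finset (Finset V)).filter (fun U => om ∉ U ∧ op ∉ U ∧ B ⊆ U),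
      (∑ z : Xc V E M, if clusB s t B z.2 = U then mu s t M β om op ∅ z *
        (if dis s t om op ∅ z.2 then 1 else 0) else 0) ≤ ZF s t M β om op ∅ true := by
    rw [sum_clusB]
    have e3 := sum_mu_dis s t (M := M) β om op ∅
    rw [card_empty, pow_zero, one_mul] at e3
    rw [← e3]
    refine sum_le_sum fun z _ => ?_
    split_ifs
    · exact le_rfl
    · exact le_rfl
    · rw [mul_one]
      exact mu_nonneg hβ' _ _ _ _
    · rw [mul_zero]
  refine le_trans ?_ (mul_le_mul_of_nonneg_right e2 hZ)
  rw [sum_mul]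
  refine sum_le_sum fun U hU => ?_
  simp only [mem_filter, mem_univ, true_and] at hU
  exact cond_leB hM hβ hU.1 hU.2.1 hU.2.2

end Vale.Agent.P159.T1.H254
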