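import Vale.Agent.P159.H353.Wgt

/-!
Statements of the rows of the unwiring inequality (plan 103 of P159).

A finite graph with vertices `V`, edges `E`, end points `s t : E → V`; integer heights on the
vertices; `om`, `op` are the two boundary vertices, `f` is the vertex which is going to be deleted.
-/

open Filter Topology

namespace Vale.Agent.P159.T1.H254

open Vale.Agent.P159.H353

section defs

variable {V E : Type} [Fintype V] [DecidableEq V] [Fintype E] [DecidableEq E]

/-- the kernel with unit steps -/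
noncomputable def ker (α β : ℝ) (n : ℤ) : ℝ := if n = 0 then α else if |n| = 1 then β else 0

/-- the `m`-fold convolution of `ker 1 β` -/
noncomputable def kerP (β : ℝ) : ℕ → ℤ → ℝ
  | 0, n => if n = 0 then 1 else 0
  | m + 1, n => kerP β m n + β * (kerP β m (n - 1) + kerP β m (n + 1))

/-- `x` and `y` are joined by an edge outside `S` -/
def adjS (s t : E → V) (S : Finset V) (x y : V) : Prop :=
  x ∉ S ∧ y ∉ S ∧ ∃ e, (s e = x ∧ t e = y) ∨ (s e = y ∧ t e = x)

/-- every vertex outside `S` is joined outside `S` to `om` or to `op` -/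
def Joined (s t : E → V) (om op : V) (S : Finset V) : Prop :=
  om ∉ S ∧ op ∉ S ∧ ∀ v, v ∉ S →
    Relation.ReflTransGen (adjS s t S) om v ∨ Relation.ReflTransGen (adjS s t S) op v

/-- the sum over the heights with the vertices of `S` (and their edges) deleted: `0` at `om`,
`k` at `op` (the deleted vertices get the dummy height `0`) -/
noncomputable def ZS (s t : E → V) (w : E → ℤ → ℝ) (om op : V) (S : Finset V) (k : ℤ) : ℝ :=
  ∑' h : {h : V → ℤ // h om = 0 ∧ h op = k ∧ ∀ v ∈ S, h v = 0},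
    ∏ e, if s e ∈ S ∨ t e ∈ S then 1 else w e (h.1 (t e) - h.1 (s e))

/-- the sum over the heights which are `0` at `om` and `op` and `≥ 1` at `f` -/
noncomputable def ZP (s t : E → V) (w : E → ℤ → ℝ) (om op f : V) : ℝ :=
  ∑' h : {h : V → ℤ // h om = 0 ∧ h op = 0 ∧ 1 ≤ h f}, ∏ e, w e (h.1 (t e) - h.1 (s e))

/-! ### the finite model: `a v` is `|h v - 1/2| - 1/2`, `σ v` is the sign of `h v - 1/2` -/

/-- the height -/
def hgt {M : ℕ} (i : Fin M) (b : Bool) : ℤ := if b then (i : ℤ) + 1 else -(i : ℤ)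

/-- the finite sum over heights in `(-M, M]`, the edges of `F` deleted; `0` at `om`, `0` resp. `1`
at `op` (`j = false` resp. `true`) -/
noncomputable def ZF (s t : E → V) (M : ℕ) (β : E → ℝ) (om op : V) (F : Finset E) (j : Bool) : ℝ :=
  ∑ a : V → Fin M, ∑ σ : V → Bool,
    if (a om : ℕ) = 0 ∧ (a op : ℕ) = 0 ∧ σ om = false ∧ σ op = j then
      ∏ e ∈ Fᶜ, ker 1 (β e) (hgt (a (t e)) (σ (t e)) - hgt (a (s e)) (σ (s e))) else 0

/-- the same with `F = ∅`, `j = false`, height `≥ 1` at `f` -/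
noncomputable def ZFP (s t : E → V) (M : ℕ) (β : E → ℝ) (om op f : V) : ℝ :=
  ∑ a : V → Fin M, ∑ σ : V → Bool,
    if (a om : ℕ) = 0 ∧ (a op : ℕ) = 0 ∧ σ om = false ∧ σ op = false ∧ σ f = true then
      ∏ e, ker 1 (β e) (hgt (a (t e)) (σ (t e)) - hgt (a (s e)) (σ (s e))) else 0

/-- the edges touching `U` -/
def touch (s t : E → V) (U : Finset V) : Finset E :=
  Finset.univ.filter fun e => s e ∈ U ∨ t e ∈ U

/-- `U` is connected and contains `f` -/
def ConnFrom (s t : E → V) (f : V) (U : Finset V) : Prop :=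
  f ∈ U ∧ ∀ v ∈ U, Relation.ReflTransGen (fun x y => x ∈ U ∧ y ∈ U ∧
    ∃ e, (s e = x ∧ t e = y) ∨ (s e = y ∧ t e = x)) f v

end defs

/-! ### the rows -/

/-- UW1 (finite core, FK at level 1/2) -/
def StmtUW1 : Prop :=
  ∀ (V E : Type) [Fintype V] [DecidableEq V] [Fintype E] [DecidableEq E] (s t : E → V)
    (M : ℕ) (β : E → ℝ) (om op f : V), 0 < M → (∀ e, 0 ≤ β e ∧ β e ≤ 1 / 2) →
    f ≠ om → f ≠ op → om ≠ op →
    ∀ r : ℝ, 0 ≤ r →
    (∀ U : Finset V, ConnFrom s t f U → om ∉ U → op ∉ U →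
      r * ZF s t M β om op (touch s t U) false ≤ ZF s t M β om op (touch s t U) true) →
    2 * r * ZFP s t M β om op f ≤ ZF s t M β om op ∅ true

/-- UW2 (subdivision): the inequality for the kernels `kerP (J e / (2 m)) m` -/
def StmtUW2 : Prop :=
  ∀ (V E : Type) [Fintype V] [DecidableEq V] [Fintype E] [DecidableEq E] (s t : E → V)
    (J : E → ℝ) (om op f : V), (∀ e, 0 ≤ J e) → f ≠ om → f ≠ op → om ≠ op →
    Joined s t om op ∅ →
    ∀ m : ℕ, 0 < m → (∀ e, J e ≤ m) → ∀ r : ℝ, 0 ≤ r →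
    (∀ S : Finset V, f ∈ S → Joined s t om op S →
      r * ZS s t (fun e => kerP (J e / (2 * m)) m) om op S 0 ≤
        ZS s t (fun e => kerP (J e / (2 * m)) m) om op S 1) →
    2 * r * ZP s t (fun e => kerP (J e / (2 * m)) m) om op f ≤
      ZS s t (fun e => kerP (J e / (2 * m)) m) om op ∅ 1

/-- UW3 (limit `m → ∞`) -/
def StmtUW3 : Prop :=
  ∀ (V E : Type) [Fintype V] [DecidableEq V] [Fintype E] [DecidableEq E] (s t : E → V)
    (J : E → ℝ) (om op f : V), (∀ e, 0 ≤ J e) → Joined s t om op ∅ →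
    (∀ S : Finset V, Joined s t om op S → ∀ k : ℤ,
      Tendsto (fun m : ℕ => ZS s t (fun e => kerP (J e / (2 * m)) m) om op S k) atTop
        (𝓝 (ZS s t (fun e => wI (J e)) om op S k))) ∧
    Tendsto (fun m : ℕ => ZP s t (fun e => kerP (J e / (2 * m)) m) om op f) atTop
        (𝓝 (ZP s t (fun e => wI (J e)) om op f))

/-- UW4 (Ginibre: deleting more vertices increases the ratio) -/
def StmtUW4 : Prop :=
  ∀ (V E : Type) [Fintype V] [DecidableEq V] [Fintype E] [DecidableEq E] (s t : E → V)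
    (J : E → ℝ) (om op : V), (∀ e, 0 < J e) → ∀ S S' : Finset V, S ⊆ S' →
    Joined s t om op S → Joined s t om op S' →
    ZS s t (fun e => wI (J e)) om op S 1 * ZS s t (fun e => wI (J e)) om op S' 0 ≤
      ZS s t (fun e => wI (J e)) om op S' 1 * ZS s t (fun e => wI (J e)) om op S 0

/-- UW (the unwiring inequality) -/
def StmtUW : Prop :=
  ∀ (V E : Type) [Fintype V] [DecidableEq V] [Fintype E] [DecidableEq E] (s t : E → V)
    (J : E → ℝ) (om op f : V), (∀ e, 0 < J e) → f ≠ om → f ≠ op → om ≠ op →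
    Joined s t om op ∅ → Joined s t om op {f} →
    2 * ZP s t (fun e => wI (J e)) om op f * ZS s t (fun e => wI (J e)) om op {f} 1 ≤
      ZS s t (fun e => wI (J e)) om op ∅ 1 * ZS s t (fun e => wI (J e)) om op {f} 0

end Vale.Agent.P159.T1.H254
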